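import Vale.Agent.P214.Slab

/-! P214: decay and vanishing of the tilted part. -/

open MeasureTheory Set Filter Metric
open scoped Topology RealInnerProductSpace

namespace Vale.Agent.P214

variable {N m : ℕ} {U : Set (V N)} {μ : Measure (V N)} {T : V N → Submodule ℝ (V N)}
  {θ : V N → ℕ} {x0 e : V N} {ρ q : ℝ} {L : Submodule ℝ (V N)}

theorem Loc.decay (h : Loc m U μ T θ) {Λ η : ℝ} (hΛ : 0 < Λ) (hη : 0 < η) :
    ∃ ε > 0, ∀ (y : V N) (σ : ℝ) (e : V N), 0 < σ → closedBall y σ ⊆ U → ‖e‖ ≤ 1 →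
      μ.real (closedBall y σ) ≤ Λ * σ ^ m →
      ∫ x in closedBall y σ, ‖(T x).starProjection e‖ ∂μ ≤ ε * σ ^ m →
      ∫ x in closedBall y (σ / 4), ‖(T x).starProjection e‖ ^ 2 ∂μ ≤
        η * ∫ x in closedBall y σ, ‖(T x).starProjection e‖ ∂μ := by
  have := h.fin
  have c0 := cc_pos (m := m)
  obtain ⟨τ, t0, t1, t2⟩ : ∃ τ : ℝ, 0 < τ ∧ τ ≤ 1 / 2 ∧ τ ≤ η * cc m / (128 * 2 ^ m * Λ) :=
    ⟨min _ _, by positivity, min_le_left _ _, min_le_right _ _⟩
  refine ⟨cc m * τ ^ (m + 1) / 2, by positivity, fun y σ e hσ hU he h1 h2 => ?_⟩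
  have s0 := mul_pos t0 hσ
  have a1 : ∀ᵐ z ∂μ, z ∈ closedBall y (σ / 2) → (σ / 2) ^ m * (cc m / 4) ≤
      ∫ x in closedBall y σ, k (τ * σ) ⟪e, z - x⟫ ∂μ := h.low.mono fun z hz l => by
    have s : closedBall z (σ / 2) ⊆ closedBall y σ :=
      closedBall_subset_closedBall' (by linarith [mem_closedBall.1 l])
    have a := h.slab hz s0 (ρ := σ / 2) (by nlinarith) (s.trans hU) he
      ((setIntegral_mono_set h.int_p1.integrableOn (.of_forall fun _ => norm_nonneg _)
        s.eventuallyLE).trans h2)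
    refine le_trans (le_of_eq ?_) (a.trans ((setIntegral_mono_set h.int_k.integrableOn
      (.of_forall fun _ => (k_pos _).le) s.eventuallyLE).trans (le_of_eq ?_)))
    · rw [mul_pow τ]
      field_simp
      ring
    · refine integral_congr_ae (.of_forall fun x => ?_)
      simp only [k]
      rw [← neg_sub z x, inner_neg_right, neg_div, neg_sq]
  obtain ⟨A, hA⟩ : ∃ A, A = ∫ x in closedBall y σ, ‖(T x).starProjection e‖ ∂μ := ⟨_, rfl⟩
  have A0 : 0 ≤ A := hA ▸ integral_nonneg fun _ => norm_nonneg _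
  have a2 : ∀ z, ∫ x, u y (σ / 2) x ^ 2 * (k (τ * σ) ⟪e, x - z⟫ * ‖(T x).starProjection e‖ ^ 2) ∂μ ≤
      τ * σ ^ 4 * A := fun z => by
    rw [hA, ← integral_const_mul, ← integral_indicator measurableSet_closedBall]
    refine h.cacc (half_pos hσ).le ((closedBall_subset_closedBall (half_le_self hσ.le)).trans hU)
      (g := fun t => τ * σ * Real.arctan (t / (τ * σ)))
      (contDiff_const.mul (Real.contDiff_arctan.comp (contDiff_id.div_const _))) (fun t => ?_)
      (fun t => (k_pos t).le) ((h.int_p1.const_mul _).indicator measurableSet_closedBall) fun x => ?_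
    · refine (((Real.hasDerivAt_arctan _).comp t ((hasDerivAt_id t).div_const (τ * σ))).const_mul
        (τ * σ)).congr_deriv ?_
      simp only [k, id]
      field_simp
    · by_cases n : x ∈ ball y (σ / 2)
      · rw [indicator_of_mem (ball_subset_closedBall (ball_subset_ball (half_le_self hσ.le) n))]
        have b1 : |Real.arctan (⟪e, x - z⟫ / (τ * σ))| ≤ 2 := abs_le.2
          ⟨by linarith [Real.neg_pi_div_two_lt_arctan (⟪e, x - z⟫ / (τ * σ)), Real.pi_le_four],
            by linarith [Real.arctan_lt_pi_div_two (⟪e, x - z⟫ / (τ * σ)), Real.pi_le_four]⟩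
        have b2 := (abs_real_inner_le_norm (x - y) ((T x).starProjection e)).trans
          (mul_le_mul_of_nonneg_right (mem_ball_iff_norm.1 n).le (norm_nonneg _))
        have b3 := u_le (y := y) (σ := σ / 2) x
        have b4 := u_nonneg (y := y) (σ := σ / 2) x
        refine (le_abs_self _).trans ?_
        rw [abs_mul, abs_mul, abs_mul (τ * σ), abs_of_pos s0, abs_of_nonneg (by positivity)]
        calc _ ≤ 4 * (σ / 2) ^ 2 * (τ * σ * 2) * (σ / 2 * ‖(T x).starProjection e‖) := by gcongr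
          _ = _ := by ring
      · rw [u_zero (half_pos hσ).le n, mul_zero, zero_mul, zero_mul]
        exact indicator_nonneg (fun _ _ => by positivity) _
  have i : Integrable (Function.uncurry fun x z : V N => u y (σ / 2) x ^ 2 *
      (k (τ * σ) ⟪e, x - z⟫ * ‖(T x).starProjection e‖ ^ 2))
      (μ.prod (μ.restrict (closedBall y σ))) := by
    refine .of_bound (AEStronglyMeasurable.mul (Continuous.aestronglyMeasurable (by fun_prop))
      ((cd_k.continuous.comp (by fun_prop)).aestronglyMeasurable.mul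
        (h.int_p 2).1.comp_fst)) (((σ / 2) ^ 2) ^ 2 * (1 * 1 ^ 2)) (.of_forall fun p => ?_)
    have b1 := k_pos (s := τ * σ) ⟪e, p.1 - p.2⟫
    have b2 := k_le (s := τ * σ) ⟪e, p.1 - p.2⟫
    have b3 := u_le (y := y) (σ := σ / 2) p.1
    have b4 := u_nonneg (y := y) (σ := σ / 2) p.1
    have b5 := ((T p.1).norm_starProjection_apply_le e).trans he
    simp only [Function.uncurry]
    rw [Real.norm_of_nonneg (by positivity)]
    gcongr
  have a3 : ∫ x, (σ / 2) ^ m * (cc m / 4) * (u y (σ / 2) x ^ 2 * ‖(T x).starProjection e‖ ^ 2) ∂μ ≤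
      Λ * σ ^ m * (τ * σ ^ 4 * A) := by
    refine (integral_mono_of_nonneg (.of_forall fun x => by positivity) i.integral_prod_left
      (a1.mono fun x hx => ?_)).trans ((integral_integral_swap i).trans_le
      ((integral_mono_of_nonneg (.of_forall fun z => integral_nonneg fun x => by
        have := k_pos (s := τ * σ) ⟪e, x - z⟫; positivity) (integrable_const _)
        (.of_forall a2)).trans ?_))
    · show _ * _ ≤ ∫ z in closedBall y σ,
        u y (σ / 2) x ^ 2 * (k (τ * σ) ⟪e, x - z⟫ * ‖(T x).starProjection e‖ ^ 2) ∂μ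
      by_cases n : x ∈ ball y (σ / 2)
      · rw [integral_const_mul, integral_mul_const, mul_left_comm]
        gcongr
        exact hx (ball_subset_closedBall n)
      · simp [u_zero (half_pos hσ).le n]
    · rw [setIntegral_const, smul_eq_mul]
      gcongr
  have a4 := int_ge (μ := μ) (y := y) (s := σ / 4) (σ := σ / 2) (by nlinarith) (h.int_p (e := e) 2)
    fun _ => by positivity
  rw [integral_const_mul] at a3
  rw [← hA]
  have K0 : 0 ≤ ∫ x in closedBall y (σ / 4), ‖(T x).starProjection e‖ ^ 2 ∂μ :=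
    integral_nonneg fun _ => by positivity
  generalize ∫ x in closedBall y (σ / 4), ‖(T x).starProjection e‖ ^ 2 ∂μ = K at a4 K0 ⊢
  rw [le_div_iff₀ (by positivity)] at t2
  refine le_of_mul_le_mul_left ?_ (show 0 < (σ / 2) ^ m * (cc m / 4) * (σ ^ 4 / 32) by positivity)
  calc _ = (σ / 2) ^ m * (cc m / 4) * (σ ^ 4 / 32 * K) := by ring
    _ ≤ (σ / 2) ^ m * (cc m / 4) * (((σ / 2) ^ 2 - (σ / 4) ^ 2) ^ 2 * K) := by
      gcongr; nlinarith [pow_pos hσ 4]
    _ ≤ _ := mul_le_mul_of_nonneg_left a4 (by positivity)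
    _ ≤ _ := a3
    _ = τ * (128 * 2 ^ m * Λ) * ((σ / 2) ^ m * σ ^ 4 * A / 128) := by rw [div_pow]; field_simp
    _ ≤ η * cc m * ((σ / 2) ^ m * σ ^ 4 * A / 128) := by gcongr
    _ = _ := by ring

theorem Loc.small (h : Loc m U μ T θ) (hρ : 0 < ρ) (hU : closedBall x0 ρ ⊆ U) (ht : Tan m μ x0 L q)
    (he : ‖e‖ ≤ 1) (he' : e ∈ Lᗮ) {δ : ℝ} (hδ : 0 < δ) : ∀ᶠ σ in 𝓝[>] (0 : ℝ),
      ∫ x in closedBall x0 (σ / 2), ‖(T x).starProjection e‖ ^ 2 ∂μ ≤ δ * σ ^ m := by
  have := h.fin
  have a := ht.2 (fun a => u 0 1 a * (4 * |⟪e, a⟫| * ‖a‖)) (by fun_prop)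
    (cs_u zero_le_one).mul_right
  rw [setIntegral_eq_zero_of_forall_eq_zero fun a ha => by
    simp [Submodule.inner_left_of_mem_orthogonal ha he'], mul_zero] at a
  filter_upwards [a.eventually (gt_mem_nhds (half_pos hδ)), Ioc_mem_nhdsGT hρ] with σ h1 ⟨hσ, l⟩
  have b := h.cacc (e := e) (z := x0) hσ.le ((closedBall_subset_closedBall l).trans hU) contDiff_id
    hasDerivAt_id (fun _ => zero_le_one)
    (B := fun x => u x0 σ x * (4 * |⟪e, x - x0⟫| * ‖x - x0‖))
    (Continuous.integrable_of_hasCompactSupport (by fun_prop) (cs_u hσ.le).mul_right) fun x => by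
      have b2 := (abs_real_inner_le_norm (x - x0) ((T x).starProjection e)).trans
        (mul_le_of_le_one_right (norm_nonneg _) (((T x).norm_starProjection_apply_le e).trans he))
      have b4 := u_nonneg (y := x0) (σ := σ) x
      refine (le_abs_self _).trans ?_
      rw [abs_mul, abs_mul, abs_of_nonneg (by positivity), id]
      calc _ ≤ 4 * u x0 σ x * |⟪e, x - x0⟫| * ‖x - x0‖ := by gcongr
        _ = _ := by ring
  have c : ∀ x, u x0 σ x * (4 * |⟪e, x - x0⟫| * ‖x - x0‖) = σ ^ 4 * (u 0 1 (σ⁻¹ • (x - x0)) *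
      (4 * |⟪e, σ⁻¹ • (x - x0)⟫| * ‖σ⁻¹ • (x - x0)‖)) := fun x => by
    rw [u_scale hσ, real_inner_smul_right, abs_mul, norm_smul, Real.norm_eq_abs,
      abs_of_pos (inv_pos.2 hσ)]
    field_simp
  simp only [c, integral_const_mul, one_mul] at b
  have d := (int_ge (s := σ / 2) (by nlinarith) (h.int_p 2) fun _ => by positivity).trans b
  rw [div_lt_iff₀ (by positivity)] at h1
  have K0 : 0 ≤ ∫ x in closedBall x0 (σ / 2), ‖(T x).starProjection e‖ ^ 2 ∂μ :=
    integral_nonneg fun _ => by positivity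
  refine le_of_mul_le_mul_left ?_ (show 0 < σ ^ 4 / 2 by positivity)
  calc _ ≤ (σ ^ 2 - (σ / 2) ^ 2) ^ 2 * _ := by gcongr; nlinarith [pow_pos hσ 4]
    _ ≤ _ := d
    _ ≤ σ ^ 4 * (δ / 2 * σ ^ m) := by gcongr
    _ = _ := by ring

theorem Loc.vanish (h : Loc m U μ T θ) (hρ : 0 < ρ) (hU : closedBall x0 (3 * ρ) ⊆ U)
    (ht : Tan m μ x0 L q) {e : Fin N → V N} (he : ∀ i, ‖e i‖ ≤ 1) (he' : ∀ i, e i ∈ Lᗮ) {c : ℝ}
    (hc : 0 < c) (gap : ∀ᵐ x ∂μ, ∑ i, ‖(T x).starProjection (e i)‖ = 0 ∨
      c ≤ ∑ i, ‖(T x).starProjection (e i)‖) :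
    ∃ r > 0, ∀ᵐ x ∂μ, x ∈ ball x0 r → ∑ i, ‖(T x).starProjection (e i)‖ = 0 := by
  have := h.fin
  have c0 := cc_pos (m := m)
  obtain ⟨Λ, hΛ, up⟩ := h.up hρ
  obtain ⟨ε, hε, dec⟩ := h.decay hΛ (show 0 < c / (2 * 4 ^ m * (N + 1)) by positivity)
  have iw : Integrable (fun x => ∑ i, ‖(T x).starProjection (e i)‖) μ :=
    integrable_finsetSum _ fun i _ => h.int_p1
  obtain ⟨M, hM⟩ : ∃ M : V N → ℝ → ℝ, ∀ y σ,
    M y σ = ∫ x in closedBall y σ, ∑ i, ‖(T x).starProjection (e i)‖ ∂μ := ⟨_, fun _ _ => rfl⟩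
  have M0 : ∀ y σ, 0 ≤ M y σ := fun y σ => hM y σ ▸ integral_nonneg fun _ => by positivity
  have M1 : ∀ y σ, M y σ = ∑ i, ∫ x in closedBall y σ, ‖(T x).starProjection (e i)‖ ∂μ :=
    fun y σ => by rw [hM, integral_finsetSum _ fun i _ => h.int_p1.integrableOn]
  have pw : ∀ y σ, c * M y σ ≤
      (N + 1) * ∑ i, ∫ x in closedBall y σ, ‖(T x).starProjection (e i)‖ ^ 2 ∂μ := fun y σ => by
    rw [hM, ← integral_finsetSum _ fun i _ => (h.int_p 2).integrableOn, ← integral_const_mul,
      ← integral_const_mul]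
    refine integral_mono_of_nonneg (.of_forall fun _ => by positivity)
      ((integrable_finsetSum _ fun i _ => (h.int_p 2).integrableOn).const_mul _)
      ((ae_restrict_of_ae gap).mono fun x hx => ?_)
    have a := sq_sum_le_card_mul_sum_sq (s := Finset.univ)
      (f := fun i => ‖(T x).starProjection (e i)‖)
    have b : 0 ≤ ∑ i, ‖(T x).starProjection (e i)‖ ^ 2 := by positivity
    rw [Finset.card_univ, Fintype.card_fin] at a
    rcases hx with l | l
    · simp only [l, mul_zero]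
      positivity
    · dsimp only
      nlinarith
  have U1 : ∀ y ∈ ball x0 ρ, closedBall y (2 * ρ) ⊆ U := fun y hy =>
    (closedBall_subset_closedBall' (by linarith [mem_ball.1 hy])).trans hU
  have step : ∀ y ∈ ball x0 ρ, ∀ σ, 0 < σ → σ ≤ ρ → M y σ ≤ ε * σ ^ m →
      M y (σ / 4) ≤ M y σ / (2 * 4 ^ m) := fun y hy σ hσ l k => by
    refine le_of_mul_le_mul_left ((pw y _).trans ?_) hc
    calc _ ≤ (N + 1) * ∑ i, c / (2 * 4 ^ m * (N + 1)) *
          ∫ x in closedBall y σ, ‖(T x).starProjection (e i)‖ ∂μ := by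
          gcongr with i
          refine dec y σ _ hσ ((closedBall_subset_closedBall (by linarith)).trans (U1 y hy)) (he i)
            (up y σ (U1 y hy) hσ l) (le_trans ?_ k)
          rw [M1]
          exact Finset.single_le_sum (f := fun i => ∫ x in closedBall y σ,
            ‖(T x).starProjection (e i)‖ ∂μ) (fun _ _ => integral_nonneg fun _ => norm_nonneg _)
            (Finset.mem_univ i)
      _ = _ := by rw [← Finset.mul_sum, ← M1]; field_simp
  obtain ⟨σ, h1, hσ, l⟩ := ((eventually_all.2 fun i => h.small hρ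
    ((closedBall_subset_closedBall (by linarith)).trans hU) ht (he i) (he' i)
    (show 0 < c * ε / (4 ^ m * (N + 1) ^ 2) by positivity)).and (Ioc_mem_nhdsGT hρ)).exists
  have ind : ∀ y ∈ ball x0 (σ / 4), ∀ n : ℕ,
      M y (σ / 4 / 4 ^ n) ≤ ε * (σ / 4 / 4 ^ n) ^ m / 2 ^ n := fun y hy n => by
    induction n with
    | zero =>
      have a : M y (σ / 4) ≤ M x0 (σ / 2) := by
        rw [hM, hM]
        exact setIntegral_mono_set iw.integrableOn (.of_forall fun _ => by positivity)
          (closedBall_subset_closedBall' (by linarith [mem_ball.1 hy])).eventuallyLE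
      simp only [pow_zero, div_one]
      refine a.trans (le_of_mul_le_mul_left ((pw _ _).trans ?_) hc)
      calc _ ≤ ((N : ℝ) + 1) * ∑ _i : Fin N, c * ε / (4 ^ m * (N + 1) ^ 2) * σ ^ m := by
            gcongr with i; exact h1 i
        _ ≤ (N + 1) * ((N + 1) * (c * ε / (4 ^ m * (N + 1) ^ 2) * σ ^ m)) := by
            rw [Finset.sum_const, Finset.card_univ, Fintype.card_fin, nsmul_eq_mul]
            gcongr
            linarith
        _ = _ := by rw [div_pow]; field_simp
    | succ n ih =>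
      rw [pow_succ, ← div_div]
      refine (step y (ball_subset_ball (by linarith) hy) _ (by positivity) ((div_le_self
        (by positivity) (one_le_pow₀ (by norm_num))).trans (by linarith)) (ih.trans (div_le_self
        (by positivity) (one_le_pow₀ one_le_two)))).trans ((div_le_div_of_nonneg_right ih
        (by positivity)).trans (le_of_eq ?_))
      rw [div_pow _ 4, pow_succ]
      field_simp
  refine ⟨σ / 4, by positivity, ?_⟩
  filter_upwards [(Besicovitch.vitaliFamily μ).ae_tendsto_average iw.locallyIntegrable, h.low]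
    with y h2 h3 hy
  have t : Tendsto (fun n : ℕ => σ / 4 / 4 ^ n) atTop (𝓝[>] 0) :=
    tendsto_nhdsWithin_iff.2 ⟨(tendsto_pow_atTop_atTop_of_one_lt (by norm_num)).const_div_atTop _,
      .of_forall fun n => show 0 < σ / 4 / 4 ^ n by positivity⟩
  refine le_antisymm (le_of_tendsto_of_tendsto' ((h2.comp (Besicovitch.tendsto_filterAt μ y)).comp t)
    ((tendsto_pow_atTop_atTop_of_one_lt one_lt_two).const_div_atTop (ε / cc m)) fun n => ?_)
    (by positivity)
  have r0 : 0 < σ / 4 / 4 ^ n := by positivity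
  have a := (mul_le_mul_of_nonneg_right (h3 _ r0 ((closedBall_subset_closedBall ((div_le_self
    (by positivity) (one_le_pow₀ (by norm_num))).trans (by linarith))).trans
    (U1 y (ball_subset_ball (by linarith) hy)))) (pow_pos r0 m).le).trans (J_le r0)
  simp only [Function.comp, setAverage_eq, smul_eq_mul, ← hM]
  rw [inv_mul_le_iff₀ (lt_of_lt_of_le (by positivity) a)]
  refine (ind y hy n).trans (le_trans (le_of_eq ?_) (mul_le_mul_of_nonneg_right a (by positivity)))
  field_simp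

end Vale.Agent.P214
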