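import Mathlib

/-! P214: stationary integral varifolds. -/

open MeasureTheory Set Filter
open scoped Topology

namespace Vale.Agent.P214

/-- Euclidean space -/
abbrev V (N : ℕ) : Type := EuclideanSpace ℝ (Fin N)

/-- the `m`-plane `T` is the approximate tangent plane of `μ` at `x`, with multiplicity `q` -/
def Tan {N : ℕ} (m : ℕ) (μ : Measure (V N)) (x : V N) (T : Submodule ℝ (V N)) (q : ℝ) : Prop :=
  Module.finrank ℝ T = m ∧ ∀ φ : V N → ℝ, Continuous φ → HasCompactSupport φ →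
    Tendsto (fun r : ℝ => (∫ y, φ (r⁻¹ • (y - x)) ∂μ) / r ^ m) (𝓝[>] 0)
      (𝓝 (q * ∫ y in (T : Set (V N)), φ y ∂μHE[m]))

/-- the first variation vanishes in `U` -/
def Stat {N : ℕ} (U : Set (V N)) (μ : Measure (V N)) (T : V N → Submodule ℝ (V N)) : Prop :=
  ∀ X : V N → V N, ContDiff ℝ 1 X → HasCompactSupport X → tsupport X ⊆ U →
    ∫ x, LinearMap.trace ℝ (V N) ((T x).starProjection.comp (fderiv ℝ X x)).toLinearMap ∂μ = 0

/-- near `p`, the measure `μ` is an integer multiple of the area measure of an affine `m`-plane -/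
def Flat {N : ℕ} (m : ℕ) (U : Set (V N)) (μ : Measure (V N)) (p : V N) : Prop :=
  ∃ W : Set (V N), IsOpen W ∧ p ∈ W ∧ W ⊆ U ∧ ∃ L : Submodule ℝ (V N), Module.finrank ℝ L = m ∧
    ∃ q : ℕ, 1 ≤ q ∧ μ.support ∩ W = W ∩ {x | x - p ∈ L} ∧
      μ.restrict W = (q : ENNReal) • (μHE[m] : Measure (V N)).restrict (W ∩ {x | x - p ∈ L})

/-- `μ` is the weight of the integral `m`-varifold in `U` given by `A` and `θ` -/
def Weight {N : ℕ} (m : ℕ) (U A : Set (V N)) (θ : V N → ℕ) (μ : Measure (V N)) : Prop :=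
  NullMeasurableSet A μHE[m] ∧ AEMeasurable θ (μHE[m].restrict A) ∧ (∀ x ∈ A, 1 ≤ θ x) ∧
    μ = (μHE[m].restrict A).withDensity (fun x => θ x) ∧ ∀ x ∈ U, ∃ W ∈ 𝓝 x, μ W < ⊤

/-- near almost every point, the planes `T y` equal `T x` or make a definite angle with it -/
def Gap {N : ℕ} (μ : Measure (V N)) (T : V N → Submodule ℝ (V N)) : Prop :=
  ∀ᵐ x ∂μ, ∃ c > 0, ∀ᵐ y ∂μ, dist y x < c →
    T y = T x ∨ ∃ e ∈ (T x)ᗮ, ‖e‖ = 1 ∧ c ≤ ‖(T y).starProjection e‖

end Vale.Agent.P214
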