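import Vale.Agent.P214.Eps

/-! P214: the dimension of the singular set for finitely many tangent planes. -/

open MeasureTheory Set Filter Metric
open scoped Topology RealInnerProductSpace

namespace Vale.Agent.P214

variable {N m : ℕ} {U A Z : Set (V N)} {μ : Measure (V N)} {T : V N → Submodule ℝ (V N)}
  {θ : V N → ℕ} {x y p : V N} {ρ σ δ : ℝ} {L : Submodule ℝ (V N)} {S : Set (Submodule ℝ (V N))}

theorem R_eq (t : ℝ) (z : V N) :
    R T (fun _ => 1) y t z = 4 * u y t z * ‖(T z)ᗮ.starProjection (z - y)‖ ^ 2 := by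
  simp only [R, Submodule.norm_sq_eq_add_norm_sq_starProjection (z - y) (T z)]
  simp

theorem Loc.drop (h : Loc m U μ T θ) (hσ : 0 < σ) (hy : y ∈ closedBall x σ)
    (h1 : closedBall x (4 * σ) ⊆ U) (h2 : closedBall y (4 * σ) ⊆ U)
    (d : J m μ (fun _ => 1) y (4 * σ) + J m μ (fun _ => 1) x (4 * σ) ≤
      J m μ (fun _ => 1) y (3 * σ) + J m μ (fun _ => 1) x (3 * σ) + δ) :
    μ.real (closedBall x σ ∩ {z | (T z).starProjection = L.starProjection}) *
      ‖Lᗮ.starProjection (y - x)‖ ^ 2 ≤ 4 ^ (m + 5) * δ * σ ^ (m + 2) := by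
  have := h.fin
  have mF := measurableSet_closedBall (x := x) (ε := σ).nullMeasurableSet.inter
    (h.meas.nullMeasurableSet_eq_fun (g := fun _ => L.starProjection) aestronglyMeasurable_const)
  obtain ⟨F, hF⟩ : ∃ F, F = closedBall x σ ∩ {z | (T z).starProjection = L.starProjection} :=
    ⟨_, rfl⟩
  rw [← hF] at mF ⊢
  obtain ⟨a, ha⟩ : ∃ a, a = ‖Lᗮ.starProjection (y - x)‖ ^ 2 := ⟨_, rfl⟩
  have a0 : 0 ≤ a := ha ▸ sq_nonneg _
  have D := fun (w : V N) (hw : closedBall w (4 * σ) ⊆ U) t (ht : t ∈ Icc (3 * σ) (4 * σ)) =>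
    h.der (ψ := fun _ => 1) contDiff_const (by linarith [ht.1])
      ((closedBall_subset_closedBall ht.2).trans hw)
  have b := mvt (C := μ.real F * (σ ^ 2 * a) / (4 * σ) ^ (m + 5)) (by linarith)
    (fun t ht => (D y h2 t ht).2.add (D x h1 t ht).2) fun t ht => by
    have t0 : 0 < t := by linarith [ht.1]
    rw [← add_div, ← integral_add (D y h2 t ht).1 (D x h1 t ht).1, ← smul_eq_mul,
      ← setIntegral_const, ← integral_indicator₀ mF]
    have c : ∫ z, F.indicator (fun _ => σ ^ 2 * a) z ∂μ ≤ _ :=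
      integral_mono ((integrable_const _).indicator₀ mF) ((D y h2 t ht).1.add (D x h1 t ht).1)
        fun z => by
      have u1 := u_nonneg (y := y) (σ := t) z
      have u2 := u_nonneg (y := x) (σ := t) z
      simp only [Pi.add_apply, R_eq]
      by_cases n : z ∈ F
      · rw [indicator_of_mem n, ha, show y - x = (z - x) - (z - y) by abel, map_sub]
        rw [hF] at n
        simp only [Submodule.starProjection_orthogonal, show _ = _ from n.2]
        have f1 := u_ge (σ := t) (closedBall_subset_closedBall' (x := x) (ε₂ := 2 * σ)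
          (by linarith [mem_closedBall'.1 hy]) n.1)
        have f2 := u_ge (σ := t) n.1
        have f3 := pow_le_pow_left₀ (by positivity) ht.1 2
        generalize (ContinuousLinearMap.id ℝ (V N) - L.starProjection) (z - x) = v
        generalize (ContinuousLinearMap.id ℝ (V N) - L.starProjection) (z - y) = w
        have f4 := pow_le_pow_left₀ (norm_nonneg _) (norm_sub_le v w) 2
        have f5 : σ ^ 2 ≤ u y t z := by nlinarith
        have f6 : σ ^ 2 ≤ u x t z := by nlinarith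
        nlinarith [mul_le_mul_of_nonneg_right f5 (sq_nonneg ‖w‖), sq_nonneg (‖v‖ - ‖w‖),
          mul_le_mul_of_nonneg_right f6 (sq_nonneg ‖v‖), sq_nonneg ‖v‖, sq_nonneg ‖w‖,
          mul_le_mul_of_nonneg_left f4 (sq_nonneg σ),
          mul_nonneg (sq_nonneg σ) (sq_nonneg (‖v‖ - ‖w‖)), mul_nonneg u1 (sq_nonneg ‖w‖),
          mul_nonneg u2 (sq_nonneg ‖v‖)]
      · rw [indicator_of_notMem n]
        positivity
    have c0 : 0 ≤ ∫ z, F.indicator (fun _ => σ ^ 2 * a) z ∂μ :=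
      integral_nonneg fun z => indicator_nonneg (fun _ _ => by positivity) z
    exact div_le_div₀ (c0.trans c) c (by positivity) (pow_le_pow_left₀ t0.le ht.2 _)
  simp only [Pi.add_apply] at b
  have e : μ.real F * (σ ^ 2 * a) / (4 * σ) ^ (m + 5) * (4 * σ - 3 * σ) ≤ δ := by linarith
  rw [div_mul_eq_mul_div, div_le_iff₀ (by positivity)] at e
  rw [← ha]
  refine le_of_mul_le_mul_left ?_ (pow_pos hσ 3)
  exact le_trans (le_of_eq (by ring)) (e.trans (le_of_eq (by ring)))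

theorem common (hS : S.Finite) {d : ℕ} (h : ∀ K ∈ S, Module.finrank ℝ K ≤ d) :
    ∃ W : Submodule ℝ (V N), Module.finrank ℝ Wᗮ ≤ d ∧ ∀ K ∈ S, Disjoint K W := by
  have a : ∀ k ≤ N - d, ∃ W : Submodule ℝ (V N), Module.finrank ℝ W = k ∧
      ∀ K ∈ S, Disjoint K W := fun k hk => by
    induction k with
    | zero => exact ⟨⊥, finrank_bot _ _, fun _ _ => disjoint_bot_right⟩
    | succ k ih =>
      obtain ⟨W, w1, w2⟩ := ih (by omega)
      have := (hS.insert ⊥).to_subtype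
      obtain ⟨v, hv⟩ := Submodule.exists_forall_notMem_of_forall_ne_top
        (fun K : (insert ⊥ S : Set _) => K.1 ⊔ W) fun K e => by
        have b := Submodule.finrank_add_le_finrank_add_finrank K.1 W
        have c : Module.finrank ℝ K.1 ≤ d := K.2.elim (fun l => by rw [l]; simp) (h _)
        rw [e, finrank_top, finrank_euclideanSpace_fin] at b
        omega
      refine ⟨W ⊔ ℝ ∙ v, by rw [Submodule.finrank_sup_span_singleton
        (by simpa using hv ⟨⊥, mem_insert _ _⟩), w1], fun K hK => ?_⟩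
      exact (w2 K hK).disjoint_sup_right_of_disjoint_sup_left
        ((Submodule.disjoint_span_singleton.2 fun l => (hv ⟨K, mem_insert_of_mem _ hK⟩ l).elim))
  obtain ⟨W, w1, w2⟩ := a _ le_rfl
  have b := W.finrank_add_finrank_orthogonal
  rw [finrank_euclideanSpace_fin] at b
  exact ⟨W, by omega, w2⟩

theorem anti {K K' W : Submodule ℝ (V N)} (h : Disjoint (K ⊓ K') W) : ∀ᶠ C : ℝ in atTop, ∀ v,
    ‖v‖ ≤ C * (‖Wᗮ.starProjection v‖ + (‖Kᗮ.starProjection v‖ + ‖K'ᗮ.starProjection v‖)) := by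
  obtain ⟨C, -, k⟩ := (Wᗮ.starProjection.prod
    (Kᗮ.starProjection.prod K'ᗮ.starProjection)).toLinearMap.exists_antilipschitzWith
    (LinearMap.ker_eq_bot'.2 fun v hv => by
      simp only [ContinuousLinearMap.coe_coe, ContinuousLinearMap.prod_apply, Prod.mk_eq_zero,
        Submodule.starProjection_apply_eq_zero_iff, Submodule.orthogonal_orthogonal] at hv
      exact Submodule.disjoint_def.1 h v hv.2 hv.1)
  refine (eventually_ge_atTop (C : ℝ)).mono fun D hD v => (k.le_mul_norm (map_zero _) v).trans ?_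
  refine mul_le_mul hD ?_ (norm_nonneg _) (C.2.trans hD)
  simp only [ContinuousLinearMap.coe_coe, ContinuousLinearMap.prod_apply, Prod.norm_mk]
  exact (max_le_max_left _ (max_le_add_of_nonneg (norm_nonneg _) (norm_nonneg _))).trans
    (max_le_add_of_nonneg (norm_nonneg _) (by positivity))

theorem dim_loc {d : ENNReal} (h : ∀ x ∈ Z, ∃ W ∈ 𝓝[Z] x, dimH W ≤ d) : dimH Z ≤ d := by
  choose! W h1 h2 using h
  obtain ⟨t, t1, t2, t3⟩ := TopologicalSpace.countable_cover_nhdsWithin h1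
  exact (dimH_mono t3).trans ((dimH_bUnion t2 W).trans_le (iSup₂_le fun x hx => h2 x (t1 hx)))

theorem dim_anti {C : ℝ} (h : ∀ x ∈ Z, ∀ y ∈ Z, ‖y - x‖ ≤ C * ‖L.starProjection (y - x)‖) :
    dimH Z ≤ Module.finrank ℝ L := by
  have a : AntilipschitzWith C.toNNReal fun x : Z => L.starProjection x.1 :=
    AntilipschitzWith.of_le_mul_dist fun x y => by
      rw [Subtype.dist_eq, dist_eq_norm, dist_eq_norm, ← map_sub]
      exact (h _ y.2 _ x.2).trans (by gcongr; exact Real.le_coe_toNNReal C)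
  have b := a.dimH_preimage_le L
  rw [show (fun x : Z => L.starProjection x.1) ⁻¹' L = univ from
    eq_univ_of_forall fun x => L.starProjection_apply_mem _,
    ← isometry_subtype_coe.dimH_image, Subtype.coe_image_univ] at b
  refine b.trans_eq (Eq.trans ?_ (Real.dimH_univ_eq_finrank L))
  rw [← (show Isometry (Subtype.val : L → V N) from isometry_subtype_coe).dimH_image, image_univ,
    Subtype.range_coe_subtype]
  rfl

theorem Loc.dim (h : Loc m U μ T θ) (hρ : 0 < ρ) (hU : closedBall p (3 * ρ) ⊆ U) (hS : S.Finite)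
    (h0 : ∀ L ∈ S, Module.finrank ℝ L = m) (h1 : ∀ᵐ x ∂μ, T x ∈ S) (hn : S.Nonempty)
    (h2 : Z ⊆ ball p (ρ / 2)) (h3 : ∀ x ∈ Z, ∀ L ∈ S, ∀ r ∈ Ioc 0 ρ,
      ¬ ∀ᵐ y ∂μ, y ∈ ball x r → T y = L) : dimH Z ≤ (m - 1 : ℕ) := by
  have := h.fin
  obtain ⟨ε, e1, e0⟩ := (((eventually_all_finite hS).2 fun L hL =>
    h.eps hρ hU hS h1 (h0 L hL)).and self_mem_nhdsWithin).exists
  replace e0 : 0 < ε := e0
  obtain ⟨W, w1, w2⟩ := common (d := m - 1) (hS.offDiag.image fun q => q.1 ⊓ q.2) (by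
      rintro _ ⟨q, hq, rfl⟩
      have a := Submodule.finrank_lt_finrank_of_lt (lt_of_le_of_ne (inf_le_left : q.1 ⊓ q.2 ≤ _)
        fun l => hq.2.2 (Submodule.eq_of_le_of_finrank_eq (inf_eq_left.1 l)
          ((h0 _ hq.1).trans (h0 _ hq.2.1).symm)))
      rw [h0 _ hq.1] at a
      exact Nat.le_sub_one_of_lt a)
  obtain ⟨C, c1, c0⟩ := (((eventually_all_finite hS.offDiag).2 fun q hq =>
    anti (w2 _ ⟨q, hq, rfl⟩)).and (eventually_gt_atTop 0)).exists
  obtain ⟨η, n0, n1⟩ : ∃ η > 0, hS.toFinset.card * η ≤ ε / 2 ^ m :=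
    ⟨ε / 2 ^ m / (hS.toFinset.card + 1), by positivity, by
      rw [mul_div_assoc', div_le_iff₀ (by positivity), mul_comm]
      gcongr
      linarith⟩
  have two : ∀ x ∈ Z, ∀ σ ∈ Ioc 0 ρ, ∃ q ∈ S.offDiag,
      η * σ ^ m ≤ μ.real (closedBall x σ ∩ {z | (T z).starProjection = q.1.starProjection}) ∧
      η * σ ^ m ≤ μ.real (closedBall x σ ∩ {z | (T z).starProjection = q.2.starProjection}) :=
    fun x hx σ hσ => by
    by_contra! n
    obtain ⟨L, l1, l2⟩ : ∃ L ∈ S, ∀ K ∈ S, K ≠ L → μ.real (closedBall x σ ∩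
        {z | (T z).starProjection = K.starProjection}) ≤ η * σ ^ m := by
      by_contra! k
      obtain ⟨L, hL⟩ := hn
      obtain ⟨K, k1, -, k2⟩ := k L hL
      obtain ⟨K', k3, k4, k5⟩ := k K k1
      exact (n (K, K') ⟨k1, k3, k4.symm⟩ k2.le).not_gt k5
    have s0 := hσ.1
    refine h3 x hx L l1 (σ / 2) ⟨half_pos s0, by linarith [hσ.2]⟩ (e1 L l1 x _ (half_pos s0)
      (by linarith [hσ.2]) (ball_subset_ball' (by linarith [hσ.2, mem_ball.1 (h2 hx)])) ?_)
    rw [mul_div_cancel₀ _ two_ne_zero]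
    classical
    calc _ ≤ μ.real (⋃ K ∈ hS.toFinset.erase L,
            closedBall x σ ∩ {z | (T z).starProjection = K.starProjection}) :=
          ENNReal.toReal_mono (measure_ne_top _ _) (measure_mono_ae (h1.mono fun z hz k =>
            mem_iUnion₂.2 ⟨T z, Finset.mem_erase.2 ⟨fun l => k.2 (by rw [l]),
              hS.mem_toFinset.2 hz⟩, k.1, rfl⟩))
      _ ≤ (hS.toFinset.erase L).card • (η * σ ^ m) := (measureReal_biUnion_finset_le _ _).trans
          (Finset.sum_le_card_nsmul _ _ _ fun K hK =>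
            l2 K (hS.mem_toFinset.1 (Finset.mem_erase.1 hK).2) (Finset.mem_erase.1 hK).1)
      _ ≤ hS.toFinset.card * η * σ ^ m := by
          rw [nsmul_eq_mul, mul_assoc]
          gcongr
          exact Finset.erase_subset _ _
      _ ≤ ε / 2 ^ m * σ ^ m := by gcongr
      _ = _ := by rw [div_pow]; ring
  obtain ⟨δ, d0, d1⟩ : ∃ δ > 0, 4 ^ (m + 5) * (2 * δ) = η * (1 / (4 * C)) ^ 2 :=
    ⟨η * (1 / (4 * C)) ^ 2 / 2 / 4 ^ (m + 5), by positivity, by field_simp⟩
  have U1 : ∀ x ∈ Z, ∀ s ≤ ρ, closedBall x s ⊆ U := fun x hx s hs =>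
    (closedBall_subset_closedBall' (by linarith [mem_ball.1 (h2 hx)])).trans hU
  have cov : Z ⊆ ⋃ j : ℕ, {y ∈ Z | ∀ s ∈ Ioc 0 (ρ / (j + 1)),
      J m μ (fun _ => 1) y (ρ / (j + 1)) ≤ J m μ (fun _ => 1) y s + δ} := fun y hy => by
    have bd : BddBelow (J m μ (fun _ => 1) y '' Ioc 0 ρ) := ⟨0, by
      rintro _ ⟨s, hs, rfl⟩
      exact div_nonneg (integral_nonneg fun _ => by positivity) (pow_pos hs.1 _).le⟩
    obtain ⟨_, ⟨s, hs, rfl⟩, k⟩ := exists_lt_of_csInf_lt
      ((nonempty_Ioc.2 hρ).image (J m μ (fun _ => 1) y)) (lt_add_of_pos_right _ d0)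
    obtain ⟨j, hj⟩ := exists_nat_ge (ρ / s)
    have a : ρ / (j + 1) ≤ s := by
      rw [div_le_iff₀ (by positivity)]
      rw [div_le_iff₀ hs.1] at hj
      nlinarith [hs.1]
    refine mem_iUnion.2 ⟨j, hy, fun t ht => ?_⟩
    linarith [h.mono (by positivity) a (U1 y hy s hs.2),
      csInf_le bd ⟨t, ⟨ht.1, ht.2.trans (a.trans hs.2)⟩, rfl⟩]
  refine (dimH_mono cov).trans ((dimH_iUnion _).trans_le (iSup_le fun j => dim_loc fun z _ => ?_))
  obtain ⟨r, hr⟩ : ∃ r, r = ρ / (j + 1) := ⟨_, rfl⟩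
  have r0 : 0 < r := hr ▸ by positivity
  have r1 : r ≤ ρ := hr ▸ div_le_self hρ.le (by linarith [Nat.cast_nonneg (α := ℝ) j])
  rw [← hr]
  refine ⟨_, inter_mem_nhdsWithin _ (ball_mem_nhds z (show 0 < r / 8 by positivity)),
    (dim_anti (L := Wᗮ) (C := 2 * C) fun x hx y hy => ?_).trans (by exact_mod_cast w1)⟩
  rcases (norm_nonneg (y - x)).eq_or_lt with s0 | s0
  · rw [← s0]
    positivity
  have s1 : ‖y - x‖ ≤ r / 4 := by
    linarith [dist_triangle_right y x z, mem_ball.1 hx.2, mem_ball.1 hy.2, dist_eq_norm y x]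
  obtain ⟨q, q1, q2, q3⟩ := two x hx.1.1 _ ⟨s0, by linarith⟩
  have k : ∀ K : Submodule ℝ (V N), η * ‖y - x‖ ^ m ≤ μ.real (closedBall x ‖y - x‖ ∩
      {z | (T z).starProjection = K.starProjection}) →
      ‖Kᗮ.starProjection (y - x)‖ ≤ 1 / (4 * C) * ‖y - x‖ := fun K hK => by
    have a := (mul_le_mul_of_nonneg_right hK (sq_nonneg _)).trans (h.drop (L := K) (δ := 2 * δ) s0
      (mem_closedBall_iff_norm.2 le_rfl) (U1 x hx.1.1 _ (by linarith)) (U1 y hy.1.1 _ (by linarith))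
      (by linarith [h.mono (by positivity) (by linarith : 4 * ‖y - x‖ ≤ r) (U1 x hx.1.1 r r1),
        h.mono (by positivity) (by linarith : 4 * ‖y - x‖ ≤ r) (U1 y hy.1.1 r r1),
        hx.1.2 (3 * ‖y - x‖) ⟨by positivity, by linarith⟩,
        hy.1.2 (3 * ‖y - x‖) ⟨by positivity, by linarith⟩]))
    rw [d1] at a
    refine (sq_le_sq₀ (norm_nonneg _) (by positivity)).1 (le_of_mul_le_mul_left
      (a.trans_eq (by ring)) (show 0 < η * ‖y - x‖ ^ m by positivity))
  have a := (c1 q q1 (y - x)).trans (mul_le_mul_of_nonneg_left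
    (add_le_add_right (add_le_add (k _ q2) (k _ q3)) _) c0.le)
  have b : C * (1 / (4 * C) * ‖y - x‖) = ‖y - x‖ / 4 := by field_simp
  linarith

theorem dim_main (hU : IsOpen U) (hμ : Weight m U A θ μ)
    (hT : AEStronglyMeasurable (fun x => (T x).starProjection) μ)
    (tan : ∀ᵐ x ∂μ, Tan m μ x (T x) (θ x)) (st : Stat U μ T)
    (fi : ∀ x ∈ U, ∃ r > 0, ∃ S : Set (Submodule ℝ (V N)), S.Finite ∧
      ∀ᵐ y ∂μ, y ∈ ball x r → T y ∈ S) :
    dimH {p ∈ U ∩ μ.support | ¬ Flat m U μ p} ≤ (m - 1 : ℕ) := by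
  obtain ⟨hA, hθ, h1, hμ, hf⟩ := hμ
  have tan' : ∀ᵐ x ∂μ, 1 ≤ θ x ∧ Tan m μ x (T x) (θ x) := by
    refine Eventually.and ?_ tan
    rw [hμ]
    exact (withDensity_absolutelyContinuous _ _).ae_le ((ae_restrict_mem₀ hA).mono h1)
  refine dim_loc fun p hp => ?_
  obtain ⟨c, c0, S, hS, h2⟩ := fi p hp.1.1
  obtain ⟨W, w1, w2⟩ := hf p hp.1.1
  obtain ⟨R, r0, k⟩ := Metric.mem_nhds_iff.1
    (inter_mem (inter_mem w1 (hU.mem_nhds hp.1.1)) (ball_mem_nhds p c0))
  have k1 : ball p R ⊆ U := fun x hx => (k hx).1.2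
  have h := loc_of isOpen_ball k1 ((measure_mono fun x hx => (k hx).1.1).trans_lt w2) hT st tan'
  have h3 : ∀ᵐ x ∂μ.restrict (ball p R), T x ∈ {L ∈ S | Module.finrank ℝ L = m} :=
    (ae_restrict_iff' measurableSet_ball).2 ((h2.and tan).mono fun x a hx =>
      ⟨a.1 (k hx).2, a.2.1⟩)
  have sp : ∀ x ∈ μ.support, x ∈ ball p R → x ∈ (μ.restrict (ball p R)).support := fun x a b =>
    Measure.interior_inter_support ⟨by rwa [isOpen_ball.interior_eq], a⟩
  obtain ⟨w, -, hw⟩ := Measure.exists_mem_of_measure_ne_zero_of_ae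
    ((Measure.mem_support_iff_forall _).1 (sp p hp.1.2 (mem_ball_self r0)) _ univ_mem).ne'
    (ae_restrict_of_ae h3)
  refine ⟨_, inter_mem_nhdsWithin _ (ball_mem_nhds p (show 0 < R / 4 / 2 by positivity)),
    h.dim (by positivity) (closedBall_subset_ball (by linarith)) (hS.sep _) (fun _ l => l.2) h3
      ⟨_, hw⟩ inter_subset_right fun x hx L hL r hr a => hx.1.2 ?_⟩
  have x1 := mem_ball.1 hx.2
  obtain ⟨δ, d0, d1, q, q1, d2, d3⟩ := h.flat' hr.1 (ball_subset_ball' (by linarith [hr.2]))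
    (sp x hx.1.1.2 (mem_ball.2 (by linarith))) a
  refine flat_of hA hθ h1 hμ d0 (d1.trans k1) hL.2 q1
    (((ae_restrict_iff' measurableSet_ball).1 d2).mono fun y k l => k (d1 l) l) (Eq.trans ?_ d3)
  exact (setIntegral_eq_of_subset_of_forall_sdiff_eq_zero measurableSet_ball d1
    fun y hy => by simp [u_zero d0.le hy.2]).symm

end Vale.Agent.P214
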