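import Vale.Agent.P214.Main

/-! P214: the epsilon regularity theorem. -/

open MeasureTheory Set Filter Metric
open scoped Topology RealInnerProductSpace

namespace Vale.Agent.P214

variable {N m : ℕ} {U : Set (V N)} {μ : Measure (V N)} {T : V N → Submodule ℝ (V N)}
  {θ : V N → ℕ} {x0 : V N} {ρ r : ℝ} {L : Submodule ℝ (V N)}

theorem Loc.vanish' (h : Loc m U μ T θ) (hρ : 0 < ρ) (hU : closedBall x0 (3 * ρ) ⊆ U)
    {e : Fin N → V N} (he : ∀ i, ‖e i‖ ≤ 1) {c : ℝ}
    (hc : 0 < c) (gap : ∀ᵐ x ∂μ, ∑ i, ‖(T x).starProjection (e i)‖ = 0 ∨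
      c ≤ ∑ i, ‖(T x).starProjection (e i)‖) :
    ∃ ε > 0, ∀ z σ, 0 < σ → σ ≤ ρ → ball z σ ⊆ ball x0 ρ →
      ∫ x in closedBall z (2 * σ), ∑ i, ‖(T x).starProjection (e i)‖ ∂μ ≤ ε * σ ^ m →
      ∀ᵐ x ∂μ, x ∈ ball z σ → ∑ i, ‖(T x).starProjection (e i)‖ = 0 := by
  have := h.fin
  have c0 := cc_pos (m := m)
  obtain ⟨Λ, hΛ, up⟩ := h.up hρ
  obtain ⟨ε, hε, dec⟩ := h.decay hΛ (show 0 < c / (2 * 4 ^ m * (N + 1)) by positivity)
  have iw : Integrable (fun x => ∑ i, ‖(T x).starProjection (e i)‖) μ :=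
    integrable_finsetSum _ fun i _ => h.int_p1
  obtain ⟨M, hM⟩ : ∃ M : V N → ℝ → ℝ, ∀ y σ,
    M y σ = ∫ x in closedBall y σ, ∑ i, ‖(T x).starProjection (e i)‖ ∂μ := ⟨_, fun _ _ => rfl⟩
  have M0 : ∀ y σ, 0 ≤ M y σ := fun y σ => hM y σ ▸ integral_nonneg fun _ => by positivity
  have M1 : ∀ y σ, M y σ = ∑ i, ∫ x in closedBall y σ, ‖(T x).starProjection (e i)‖ ∂μ :=
    fun y σ => by rw [hM, integral_finsetSum _ fun i _ => h.int_p1.integrableOn]
  have pw : ∀ y σ, c * M y σ ≤
      (N + 1) * ∑ i, ∫ x in closedBall y σ, ‖(T x).starProjection (e i)‖ ^ 2 ∂μ := fun y σ => by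
    rw [hM, ← integral_finsetSum _ fun i _ => (h.int_p 2).integrableOn, ← integral_const_mul,
      ← integral_const_mul]
    refine integral_mono_of_nonneg (.of_forall fun _ => by positivity)
      ((integrable_finsetSum _ fun i _ => (h.int_p 2).integrableOn).const_mul _)
      ((ae_restrict_of_ae gap).mono fun x hx => ?_)
    have a := sq_sum_le_card_mul_sum_sq (s := Finset.univ)
      (f := fun i => ‖(T x).starProjection (e i)‖)
    have b : 0 ≤ ∑ i, ‖(T x).starProjection (e i)‖ ^ 2 := by positivity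
    rw [Finset.card_univ, Fintype.card_fin] at a
    rcases hx with l | l
    · simp only [l, mul_zero]
      positivity
    · dsimp only
      nlinarith
  have U1 : ∀ y ∈ ball x0 ρ, closedBall y (2 * ρ) ⊆ U := fun y hy =>
    (closedBall_subset_closedBall' (by linarith [mem_ball.1 hy])).trans hU
  have step : ∀ y ∈ ball x0 ρ, ∀ σ, 0 < σ → σ ≤ ρ → M y σ ≤ ε * σ ^ m →
      M y (σ / 4) ≤ M y σ / (2 * 4 ^ m) := fun y hy σ hσ l k => by
    refine le_of_mul_le_mul_left ((pw y _).trans ?_) hc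
    calc _ ≤ (N + 1) * ∑ i, c / (2 * 4 ^ m * (N + 1)) *
          ∫ x in closedBall y σ, ‖(T x).starProjection (e i)‖ ∂μ := by
          gcongr with i
          refine dec y σ _ hσ ((closedBall_subset_closedBall (by linarith)).trans (U1 y hy)) (he i)
            (up y σ (U1 y hy) hσ l) (le_trans ?_ k)
          rw [M1]
          exact Finset.single_le_sum (f := fun i => ∫ x in closedBall y σ,
            ‖(T x).starProjection (e i)‖ ∂μ) (fun _ _ => integral_nonneg fun _ => norm_nonneg _)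
            (Finset.mem_univ i)
      _ = _ := by rw [← Finset.mul_sum, ← M1]; field_simp
  refine ⟨ε, hε, fun z σ hσ l sb h1 => ?_⟩
  have ind : ∀ y ∈ ball z σ, ∀ n : ℕ,
      M y (σ / 4 ^ n) ≤ ε * (σ / 4 ^ n) ^ m / 2 ^ n := fun y hy n => by
    induction n with
    | zero =>
      simp only [pow_zero, div_one]
      rw [hM]
      exact (setIntegral_mono_set iw.integrableOn (.of_forall fun _ => by positivity)
        (closedBall_subset_closedBall' (by linarith [mem_ball.1 hy])).eventuallyLE).trans h1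
    | succ n ih =>
      rw [pow_succ, ← div_div]
      refine (step y (sb hy) _ (by positivity) ((div_le_self
        (by positivity) (one_le_pow₀ (by norm_num))).trans l) (ih.trans (div_le_self
        (by positivity) (one_le_pow₀ one_le_two)))).trans ((div_le_div_of_nonneg_right ih
        (by positivity)).trans (le_of_eq ?_))
      rw [div_pow _ 4, pow_succ]
      field_simp
  filter_upwards [(Besicovitch.vitaliFamily μ).ae_tendsto_average iw.locallyIntegrable, h.low]
    with y h2 h3 hy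
  have t : Tendsto (fun n : ℕ => σ / 4 ^ n) atTop (𝓝[>] 0) :=
    tendsto_nhdsWithin_iff.2 ⟨(tendsto_pow_atTop_atTop_of_one_lt (by norm_num)).const_div_atTop _,
      .of_forall fun n => show 0 < σ / 4 ^ n by positivity⟩
  refine le_antisymm (le_of_tendsto_of_tendsto' ((h2.comp (Besicovitch.tendsto_filterAt μ y)).comp t)
    ((tendsto_pow_atTop_atTop_of_one_lt one_lt_two).const_div_atTop (ε / cc m)) fun n => ?_)
    (by positivity)
  have r0 : 0 < σ / 4 ^ n := by positivity
  have a := (mul_le_mul_of_nonneg_right (h3 _ r0 ((closedBall_subset_closedBall ((div_le_self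
    (by positivity) (one_le_pow₀ (by norm_num))).trans (by linarith))).trans
    (U1 y (sb hy)))) (pow_pos r0 m).le).trans (J_le r0)
  simp only [Function.comp, setAverage_eq, smul_eq_mul, ← hM]
  rw [inv_mul_le_iff₀ (lt_of_lt_of_le (by positivity) a)]
  refine (ind y hy n).trans (le_trans (le_of_eq ?_) (mul_le_mul_of_nonneg_right a (by positivity)))
  field_simp

/-- a spanning family of the orthogonal complement -/
noncomputable def bs (L : Submodule ℝ (V N)) (i : Fin N) : V N :=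
  Lᗮ.starProjection (EuclideanSpace.single i 1)

theorem bs_le (i : Fin N) : ‖bs L i‖ ≤ 1 :=
  (Submodule.norm_starProjection_apply_le _ _).trans_eq (by simp)

theorem bs_zero (i : Fin N) : L.starProjection (bs L i) = 0 :=
  L.starProjection_apply_eq_zero_iff.2 (Submodule.starProjection_apply_mem _ _)

theorem mem_of_bs {v : V N} (h : ∀ i, ⟪bs L i, v⟫ = 0) : v ∈ L := by
  rw [← L.orthogonal_orthogonal, ← Submodule.starProjection_apply_eq_zero_iff]
  ext i
  have := h i
  rw [bs, Submodule.inner_starProjection_left_eq_right] at this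
  simpa [EuclideanSpace.inner_single_left] using this

theorem Loc.eps (h : Loc m U μ T θ) (hρ : 0 < ρ) (hU : closedBall x0 (3 * ρ) ⊆ U)
    {S : Set (Submodule ℝ (V N))} (hS : S.Finite) (h1 : ∀ᵐ x ∂μ, T x ∈ S)
    (hL : Module.finrank ℝ L = m) : ∀ᶠ ε in 𝓝[>] (0 : ℝ), ∀ z σ, 0 < σ → σ ≤ ρ →
      ball z σ ⊆ ball x0 ρ → μ.real (closedBall z (2 * σ) ∩
        {x | (T x).starProjection ≠ L.starProjection}) ≤ ε * σ ^ m →
      ∀ᵐ x ∂μ, x ∈ ball z σ → T x = L := by
  have := h.fin
  have a : ∀ K ∈ S, ∀ᶠ c in 𝓝[>] (0 : ℝ), Module.finrank ℝ K = m →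
      K = L ∨ c ≤ ∑ i, ‖K.starProjection (bs L i)‖ := fun K _ => by
    rcases (show 0 ≤ ∑ i, ‖K.starProjection (bs L i)‖ by positivity).eq_or_lt with l | l
    · refine .of_forall fun c k => Or.inl (Submodule.eq_of_le_of_finrank_eq (fun v hv =>
        mem_of_bs fun i => ?_) (k.trans hL.symm))
      rw [← Submodule.starProjection_eq_self_iff.2 hv,
        ← Submodule.inner_starProjection_left_eq_right, norm_eq_zero.1
        ((Finset.sum_eq_zero_iff_of_nonneg fun _ _ => norm_nonneg _).1 l.symm i (Finset.mem_univ i)),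
        inner_zero_left]
    · exact mem_of_superset (Ioc_mem_nhdsGT l) fun c hc _ => Or.inr hc.2
  obtain ⟨c, h2, c0⟩ := (((eventually_all_finite hS).2 a).and self_mem_nhdsWithin).exists
  have g : ∀ᵐ x ∂μ, T x = L ∨ c ≤ ∑ i, ‖(T x).starProjection (bs L i)‖ := by
    filter_upwards [h1, h.tan] with x k l using h2 _ k l.2.1
  obtain ⟨ε, e0, h3⟩ := h.vanish' hρ hU bs_le c0 (g.mono fun y hy => hy.imp_left fun l =>
    Finset.sum_eq_zero fun i _ => by rw [l, bs_zero, norm_zero])
  filter_upwards [Ioc_mem_nhdsGT (show 0 < ε / (N + 1) by positivity)] with η hη z σ hσ l s k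
  refine (g.and (h3 z σ hσ l s ?_)).mono fun x b hx =>
    b.1.resolve_right (by rw [b.2 hx]; exact (mem_Ioi.1 c0).not_ge)
  have mF : NullMeasurableSet {x | (T x).starProjection ≠ L.starProjection}
      (μ.restrict (closedBall z (2 * σ))) :=
    (h.meas.restrict.nullMeasurableSet_eq_fun aestronglyMeasurable_const).compl
  calc _ ≤ ∫ x in closedBall z (2 * σ), {x | (T x).starProjection ≠ L.starProjection}.indicator
          (fun _ => (N + 1 : ℝ)) x ∂μ := by
        refine integral_mono_of_nonneg (.of_forall fun _ => by positivity)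
          ((integrable_const _).indicator₀ mF) (.of_forall fun x => ?_)
        by_cases n : (T x).starProjection = L.starProjection
        · simp [n, bs_zero]
        · rw [indicator_of_mem n]
          refine (Finset.sum_le_card_nsmul _ _ 1 fun i _ =>
            (Submodule.norm_starProjection_apply_le _ _).trans (bs_le i)).trans ?_
          simp
    _ = (N + 1) * μ.real (closedBall z (2 * σ) ∩
          {x | (T x).starProjection ≠ L.starProjection}) := by
        rw [integral_indicator₀ mF, setIntegral_const, smul_eq_mul, mul_comm,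
          measureReal_restrict_apply' measurableSet_closedBall, inter_comm]
    _ ≤ (N + 1) * (ε / (N + 1) * σ ^ m) := by
        gcongr
        exact k.trans (mul_le_mul_of_nonneg_right hη.2 (by positivity))
    _ = _ := by field_simp

theorem Loc.flat' (h : Loc m U μ T θ) (hr : 0 < r) (hU : ball x0 r ⊆ U) (hx : x0 ∈ μ.support)
    (h1 : ∀ᵐ y ∂μ, y ∈ ball x0 r → T y = L) :
    ∃ δ > 0, ball x0 δ ⊆ U ∧ ∃ q : ℕ, 1 ≤ q ∧ (∀ᵐ z ∂μ, z ∈ ball x0 δ → z - x0 ∈ L ∧ θ z = q) ∧
      ∫ x, u x0 δ x ^ 2 ∂μ = q * (δ ^ (m + 4) * cc m) := by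
  have := h.fin
  have c0 := cc_pos (m := m)
  obtain ⟨δ, h2, hδ, l⟩ := ((eventually_all.2 fun i => h.level hr hU (bs_le (L := L) i)
    (h1.mono fun x hx k => by rw [hx k, bs_zero])).and (Ioc_mem_nhdsGT hr)).exists
  have h3 : ∀ᵐ x ∂μ, x ∈ ball x0 δ → x - x0 ∈ L ∧ T x = L := by
    filter_upwards [ae_all_iff.2 h2, h1] with x a b hx
    exact ⟨mem_of_bs fun i => a i hx, b (ball_subset_ball l hx)⟩
  have s1 : ball x0 δ ⊆ U := (ball_subset_ball l).trans hU
  have s3 : ball x0 (δ / 2) ⊆ ball x0 δ := ball_subset_ball (half_le_self hδ.le)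
  have co : ∀ z ∈ ball x0 (δ / 2), z - x0 ∈ L → ∀ s ∈ Ioc 0 (δ / 2),
      J m μ (fun _ => 1) z s = J m μ (fun _ => 1) z (δ / 2) := fun z hz k s hs => by
    have a : closedBall z (δ / 2) ⊆ ball x0 δ :=
      closedBall_subset_ball' (by linarith [mem_ball.1 hz])
    refine h.const hs.1 hs.2 (a.trans s1) (h3.mono fun x hx b => ?_)
    obtain ⟨b1, b2⟩ := hx (a (ball_subset_closedBall b))
    rw [b2, ← sub_sub_sub_cancel_right x z x0]
    exact sub_mem b1 k
  have eq : ∀ᵐ z ∂μ, 1 ≤ θ z ∧ (z ∈ ball x0 (δ / 2) →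
      z - x0 ∈ L ∧ J m μ (fun _ => 1) z (δ / 2) = θ z * cc m) := by
    filter_upwards [h3, h.tan] with z a b
    exact ⟨b.1, fun hz => ⟨(a (s3 hz)).1, tendsto_nhds_unique (tendsto_const_nhds.congr'
      (mem_of_superset (Ioc_mem_nhdsGT (half_pos hδ)) fun s hs =>
        (co z hz (a (s3 hz)).1 s hs).symm)) b.2.lim⟩⟩
  have cJ := (cont_J (m := m) (μ := μ) (δ / 2)).continuousAt (x := x0)
  obtain ⟨γ, g0, g1⟩ := Metric.continuousAt_iff.1 cJ _ (half_pos c0)
  have m1 := lt_min g0 (half_pos hδ)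
  have s2 : ball x0 (min γ (δ / 2)) ⊆ ball x0 (δ / 2) := ball_subset_ball (min_le_right _ _)
  have sp := (Measure.mem_support_iff_forall _).1 hx
  obtain ⟨w, w1, w2, w3⟩ := Measure.exists_mem_of_measure_ne_zero_of_ae
    (sp _ (ball_mem_nhds x0 m1)).ne' (ae_restrict_of_ae eq)
  have h4 : ∀ᵐ z ∂μ, z ∈ ball x0 (min γ (δ / 2)) → (z - x0 ∈ L ∧ θ z = θ w) ∧
      J m μ (fun _ => 1) z (δ / 2) = θ w * cc m := eq.mono fun z a hz => by
    have d := (dist_triangle_right _ _ _).trans_lt (add_lt_add (g1 ((mem_ball.1 hz).trans_le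
      (min_le_left _ _))) (g1 ((mem_ball.1 w1).trans_le (min_le_left _ _))))
    rw [(a.2 (s2 hz)).2, (w3 (s2 w1)).2, Real.dist_eq, ← sub_mul, abs_mul,
      abs_of_pos c0, add_halves, mul_lt_iff_lt_one_left c0, abs_lt] at d
    have d1 : (θ z : ℝ) < θ w + 1 := by linarith
    have d2 : (θ w : ℝ) < θ z + 1 := by linarith
    norm_cast at d1 d2
    have d3 : θ z = θ w := by omega
    exact ⟨⟨(a.2 (s2 hz)).1, d3⟩, d3 ▸ (a.2 (s2 hz)).2⟩
  refine ⟨_, m1, (s2.trans s3).trans s1, θ w, w2, h4.mono fun z a hz => (a hz).1, ?_⟩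
  have b : J m μ (fun _ => 1) x0 (δ / 2) = θ w * cc m := by_contra fun n => by
    obtain ⟨v, v1, v2⟩ := Measure.exists_mem_of_measure_ne_zero_of_ae (sp _ (inter_mem
      (cJ.eventually_ne n) (ball_mem_nhds x0 m1))).ne' (ae_restrict_of_ae h4)
    exact v1.1 (v2 v1.2).2
  have a := (co x0 (mem_ball_self (half_pos hδ)) (by simp) _ ⟨m1, min_le_right _ _⟩).trans b
  rw [J, div_eq_iff (by positivity)] at a
  simp only [mul_one] at a
  rw [a]
  ring

end Vale.Agent.P214
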