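import Vale.Agent.P214.Decay

/-! P214: flatness near a point with a tangent plane. -/

open MeasureTheory Set Filter Metric
open scoped Topology RealInnerProductSpace

namespace Vale.Agent.P214

variable {N m : ℕ} {U : Set (V N)} {μ : Measure (V N)} {T : V N → Submodule ℝ (V N)}
  {θ : V N → ℕ} {x0 e : V N} {r : ℝ}

theorem Loc.level (h : Loc m U μ T θ) (hr : 0 < r) (hU : ball x0 r ⊆ U) (he : ‖e‖ ≤ 1)
    (h0 : ∀ᵐ x ∂μ, x ∈ ball x0 r → (T x).starProjection e = 0) :
    ∀ᶠ δ in 𝓝[>] (0 : ℝ), ∀ᵐ z ∂μ, z ∈ ball x0 δ → ⟪e, z - x0⟫ = 0 := by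
  have := h.fin
  have c0 := cc_pos (m := m)
  let S : ℝ → Set (V N) := fun η => {x | 0 < |⟪e, x - x0⟫| ∧ |⟪e, x - x0⟫| < η}
  have mS : ∀ η, MeasurableSet (S η) := fun η =>
    (isOpen_Ioo.preimage (show Continuous fun x => |⟪e, x - x0⟫| by fun_prop)).measurableSet
  have t := tendsto_measure_biInter_gt (μ := μ) (s := S) (a := 0)
    (fun η _ => (mS η).nullMeasurableSet) (fun i j _ l x hx => ⟨hx.1, hx.2.trans_le l⟩)
    ⟨1, one_pos, measure_ne_top _ _⟩
  rw [show ⋂ η > 0, S η = ∅ from eq_empty_of_forall_notMem fun x hx =>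
    lt_irrefl _ (mem_iInter₂.1 hx _ (mem_iInter₂.1 hx 1 one_pos).1).2, measure_empty] at t
  obtain ⟨η, h1, hη⟩ := ((t.eventually (gt_mem_nhds (ENNReal.ofReal_pos.2
    (show 0 < (r / 4) ^ m * (cc m / 2) by positivity)))).and self_mem_nhdsWithin).exists
  filter_upwards [Ioc_mem_nhdsGT (lt_min (half_pos hη) (half_pos hr))] with δ hδ
  filter_upwards [h.low] with z hz l
  by_contra n
  have s : closedBall z (r / 4) ⊆ ball x0 r := closedBall_subset_ball'
    (by linarith [mem_ball.1 l, hδ.2.trans (min_le_right _ _)])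
  have a : |⟪e, z - x0⟫| < η / 2 := ((abs_real_inner_le_norm _ _).trans
    (mul_le_of_le_one_left (norm_nonneg _) he)).trans_lt
    ((mem_ball_iff_norm.1 l).trans_le (hδ.2.trans (min_le_left _ _)))
  have T : Tendsto (fun s : ℝ => μ.real (S η) + μ.real univ * (s / ⟪e, z - x0⟫) ^ 2) (𝓝[>] 0)
      (𝓝 (μ.real (S η))) := tendsto_nhdsWithin_of_tendsto_nhds
    (Continuous.tendsto' (by fun_prop) _ _ (by simp))
  refine (ENNReal.toReal_lt_of_lt_ofReal h1).not_ge (ge_of_tendsto T
    (mem_of_superset (Ioc_mem_nhdsGT (show 0 < r / 4 by positivity)) fun σ hσ => ?_))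
  have b := h.slab hz hσ.1 hσ.2 (s.trans hU) he (A := 0) (le_of_eq (by
    rw [← integral_zero]
    exact setIntegral_congr_ae measurableSet_closedBall
      (h0.mono fun x hx k => by rw [hx (s k), norm_zero])))
  rw [zero_mul, zero_div, sub_zero] at b
  refine b.trans ((setIntegral_le_integral h.int_k (.of_forall fun _ => (k_pos _).le)).trans ?_)
  rw [← integral_indicator_one (mS η), ← smul_eq_mul, ← integral_const, ← integral_add
    ((integrable_const 1).indicator (mS η)) (integrable_const _)]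
  refine integral_mono h.int_k (((integrable_const 1).indicator (mS η)).add (integrable_const _))
    fun x => ?_
  by_cases hx : x ∈ S η
  · simp only [indicator_of_mem hx]
    exact (k_le _).trans (le_add_of_nonneg_right (sq_nonneg _))
  · simp only [indicator_of_notMem hx, zero_add, k]
    have c : |⟪e, z - x0⟫| ≤ |⟪e, x - z⟫| := by
      rw [← sub_sub_sub_cancel_right x z x0, inner_sub_right e (x - x0)]
      rcases not_and_or.1 hx with k | k
      · rw [abs_nonpos_iff.1 (not_lt.1 k), zero_sub, abs_neg]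
      · linarith [abs_sub_abs_le_abs_sub ⟪e, x - x0⟫ ⟪e, z - x0⟫, not_lt.1 k]
    have s0 := hσ.1
    have d := sq_le_sq.2 c
    have f := sq_pos_of_ne_zero n
    rw [div_pow, div_pow, div_le_div_iff₀ (by positivity) f]
    field_simp
    nlinarith [sq_nonneg σ]

theorem cont_J [IsFiniteMeasure μ] (σ : ℝ) : Continuous fun z => J m μ (fun _ => 1) z σ :=
  (continuous_of_dominated (bound := fun _ => (σ ^ 2) ^ 2)
    (fun z => Continuous.aestronglyMeasurable (by fun_prop)) (fun z => .of_forall fun x => by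
      rw [mul_one, Real.norm_of_nonneg (sq_nonneg _)]
      exact pow_le_pow_left₀ (u_nonneg x) (u_le x) 2) (integrable_const _)
    (.of_forall fun x => by unfold u; fun_prop)).div_const _

theorem Loc.flat (h : Loc m U μ T θ) (hU : U ∈ 𝓝 x0) (ht : Tan m μ x0 (T x0) (θ x0)) {c : ℝ}
    (hc : 0 < c)
    (gap : ∀ᵐ y ∂μ, T y = T x0 ∨ ∃ e ∈ (T x0)ᗮ, ‖e‖ = 1 ∧ c ≤ ‖(T y).starProjection e‖) :
    ∃ δ > 0, ball x0 δ ⊆ U ∧ (∀ᵐ z ∂μ, z ∈ ball x0 δ → z - x0 ∈ T x0 ∧ θ z = θ x0) ∧
      ∫ x, u x0 δ x ^ 2 ∂μ = θ x0 * (δ ^ (m + 4) * cc m) := by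
  have := h.fin
  have c0 := cc_pos (m := m)
  obtain ⟨ρ, hρ, hb⟩ := nhds_basis_closedBall.mem_iff.1 hU
  obtain ⟨e, he⟩ : ∃ e : Fin N → V N,
    ∀ i, e i = (T x0)ᗮ.starProjection (EuclideanSpace.single i 1) := ⟨_, fun _ => rfl⟩
  have e1 : ∀ i, ‖e i‖ ≤ 1 := fun i =>
    he i ▸ (Submodule.norm_starProjection_apply_le _ _).trans_eq (by simp)
  have e2 : ∀ i, e i ∈ (T x0)ᗮ := fun i => he i ▸ Submodule.starProjection_apply_mem _ _
  have g : ∀ᵐ y ∂μ, T y = T x0 ∨ c ≤ ∑ i, ‖(T y).starProjection (e i)‖ := gap.mono fun y hy =>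
    hy.imp_right fun ⟨v, v1, v2, v3⟩ => by
    have a : v = ∑ i, v i • e i := by
      simp only [he, ← map_smul, ← map_sum]
      refine (Submodule.starProjection_eq_self_iff.2 v1).symm.trans (congrArg _ ?_)
      simpa using ((EuclideanSpace.basisFun (Fin N) ℝ).sum_repr _).symm
    rw [a, map_sum] at v3
    refine v3.trans (norm_sum_le_of_le _ fun i _ => ?_)
    rw [map_smul, norm_smul]
    exact mul_le_of_le_one_left (norm_nonneg _) (v2 ▸ PiLp.norm_apply_le v i)
  obtain ⟨r, hr, h1⟩ := h.vanish (ρ := ρ / 3) (by positivity) (by rwa [mul_div_cancel₀ _ three_ne_zero])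
    ht e1 e2 hc (g.mono fun y hy => hy.imp_left fun l => Finset.sum_eq_zero fun i _ => by
      rw [l, (T x0).starProjection_apply_eq_zero_iff.2 (e2 i), norm_zero])
  have m0 := lt_min hr hρ
  obtain ⟨δ, h2, hδ, l⟩ := ((eventually_all.2 fun i => h.level m0 ((ball_subset_closedBall.trans
    (closedBall_subset_closedBall (min_le_right _ _))).trans hb) (e1 i) (h1.mono fun x hx k =>
      norm_eq_zero.1 ((Finset.sum_eq_zero_iff_of_nonneg fun _ _ => norm_nonneg _).1
        (hx (ball_subset_ball (min_le_left _ _) k)) i (Finset.mem_univ i)))).and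
    (Ioc_mem_nhdsGT m0)).exists
  have h3 : ∀ᵐ x ∂μ, x ∈ ball x0 δ → x - x0 ∈ T x0 ∧ T x = T x0 := by
    filter_upwards [ae_all_iff.2 h2, h1, g] with x a b d hx
    refine ⟨?_, d.resolve_right (by
      rw [b (ball_subset_ball (l.trans (min_le_left _ _)) hx)]; exact hc.not_ge)⟩
    rw [← (T x0).orthogonal_orthogonal, ← Submodule.starProjection_apply_eq_zero_iff]
    ext i
    have := a i hx
    rw [he, Submodule.inner_starProjection_left_eq_right] at this
    simpa [EuclideanSpace.inner_single_left] using this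
  have s1 : ball x0 δ ⊆ U := (ball_subset_closedBall.trans
    (closedBall_subset_closedBall (l.trans (min_le_right _ _)))).trans hb
  have co : ∀ z ∈ ball x0 (δ / 2), z - x0 ∈ T x0 → ∀ s ∈ Ioc 0 (δ / 2),
      J m μ (fun _ => 1) z s = J m μ (fun _ => 1) z (δ / 2) := fun z hz k s hs => by
    have a : closedBall z (δ / 2) ⊆ ball x0 δ :=
      closedBall_subset_ball' (by linarith [mem_ball.1 hz])
    refine h.const hs.1 hs.2 (a.trans s1) (h3.mono fun x hx b => ?_)
    obtain ⟨b1, b2⟩ := hx (a (ball_subset_closedBall b))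
    rw [b2, ← sub_sub_sub_cancel_right x z x0]
    exact sub_mem b1 k
  have eq : ∀ z ∈ ball x0 (δ / 2), z - x0 ∈ T x0 → Tan m μ z (T z) (θ z) →
      J m μ (fun _ => 1) z (δ / 2) = θ z * cc m := fun z hz k t =>
    tendsto_nhds_unique (tendsto_const_nhds.congr' (mem_of_superset (Ioc_mem_nhdsGT (half_pos hδ))
      fun s hs => (co z hz k s hs).symm)) t.lim
  have z0 := mem_ball_self (x := x0) (half_pos hδ)
  have z1 : x0 - x0 ∈ T x0 := by simp
  obtain ⟨γ, g0, g1⟩ := Metric.continuousAt_iff.1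
    (cont_J (m := m) (μ := μ) (δ / 2)).continuousAt _ c0
  have m1 := lt_min g0 (half_pos hδ)
  have s2 : ball x0 (min γ (δ / 2)) ⊆ ball x0 (δ / 2) := ball_subset_ball (min_le_right _ _)
  have s3 : ball x0 (δ / 2) ⊆ ball x0 δ := ball_subset_ball (half_le_self hδ.le)
  refine ⟨_, m1, (s2.trans s3).trans s1, ?_, ?_⟩
  · filter_upwards [h3, h.tan] with z a b hz
    refine ⟨(a (s3 (s2 hz))).1, ?_⟩
    have d := g1 ((mem_ball.1 hz).trans_le (min_le_left _ _))
    rw [eq z (s2 hz) (a (s3 (s2 hz))).1 b.2, eq x0 z0 z1 ht, Real.dist_eq, ← sub_mul, abs_mul,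
      abs_of_pos c0, mul_lt_iff_lt_one_left c0, abs_lt] at d
    have d1 : (θ z : ℝ) < θ x0 + 1 := by linarith
    have d2 : (θ x0 : ℝ) < θ z + 1 := by linarith
    norm_cast at d1 d2
    omega
  · have a := (co x0 z0 z1 _ ⟨m1, min_le_right _ _⟩).trans (eq x0 z0 z1 ht)
    rw [J, div_eq_iff (by positivity)] at a
    simp only [mul_one] at a
    rw [a]
    ring

end Vale.Agent.P214
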