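import Vale.Agent.P214.Flat

/-! P214: the singular set is null under an angle gap. -/

open MeasureTheory Set Filter Metric
open scoped Topology RealInnerProductSpace

namespace Vale.Agent.P214

variable {N m : ℕ} {U B A : Set (V N)} {μ : Measure (V N)} {T : V N → Submodule ℝ (V N)}
  {θ : V N → ℕ} {z p : V N} {q r : ℝ} {L : Submodule ℝ (V N)}

theorem Tan.restrict (h : Tan m μ z L q) (hB : B ∈ 𝓝 z) : Tan m (μ.restrict B) z L q := by
  refine ⟨h.1, fun φ c s => (h.2 φ c s).congr' ?_⟩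
  obtain ⟨K, hK⟩ := s.isCompact.isBounded.subset_closedBall 0
  have t : Tendsto (fun r : ℝ => r * K) (𝓝[>] 0) (𝓝 0) :=
    tendsto_nhdsWithin_of_tendsto_nhds (Continuous.tendsto' (by fun_prop) _ _ (by simp))
  filter_upwards [t.eventually (eventually_closedBall_subset hB), self_mem_nhdsWithin]
    with r h1 (h2 : 0 < r)
  rw [setIntegral_eq_integral_of_forall_compl_eq_zero fun x hx =>
    image_eq_zero_of_notMem_tsupport fun l => hx (h1 ?_)]
  have := mem_closedBall_zero_iff.1 (hK l)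
  rwa [norm_smul, norm_inv, Real.norm_of_nonneg h2.le, inv_mul_le_iff₀ h2,
    ← mem_closedBall_iff_norm] at this

theorem loc_of (hB : IsOpen B) (hBU : B ⊆ U) (hf : μ B < ⊤)
    (hT : AEStronglyMeasurable (fun x => (T x).starProjection) μ) (st : Stat U μ T)
    (tan : ∀ᵐ x ∂μ, 1 ≤ θ x ∧ Tan m μ x (T x) (θ x)) : Loc m B (μ.restrict B) T θ :=
  ⟨isFiniteMeasure_restrict.2 hf.ne, hT.restrict, fun X h1 h2 h3 =>
    (setIntegral_eq_integral_of_forall_compl_eq_zero fun x hx => by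
      rw [image_eq_zero_of_notMem_tsupport (f := fderiv ℝ X)
        fun l => hx (h3 (tsupport_fderiv_subset ℝ l))]
      simp).trans (st X h1 h2 (h3.trans hBU)),
    (ae_restrict_iff' hB.measurableSet).2 (tan.mono fun _ hx l =>
      ⟨hx.1, hx.2.restrict (hB.mem_nhds l)⟩)⟩

theorem supp_eq {W : Set (V N)} (hW : IsOpen W) (hL : Module.finrank ℝ L = m) {n : ℕ} (hn : 1 ≤ n)
    (h : μ.restrict W = (n : ENNReal) • (μHE[m] : Measure (V N)).restrict (W ∩ {x | x - p ∈ L})) :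
    μ.support ∩ W = W ∩ {x | x - p ∈ L} := by
  obtain ⟨j, h1, -, h2, h3⟩ := plane hL p
  have k : ∀ O, IsOpen O → O ⊆ W → μ O = n * volume (j ⁻¹' O) := fun O o s => by
    rw [← Measure.restrict_eq_self μ s, h, Measure.smul_apply, smul_eq_mul,
      ← Measure.map_apply h1.continuous.measurable o.measurableSet, ← h3,
      Measure.restrict_apply o.measurableSet, Measure.restrict_apply o.measurableSet, ← inter_assoc,
      inter_eq_left.2 s]
  rw [← h2]
  ext x
  refine ⟨fun ⟨a, b⟩ => ⟨b, by_contra fun l => ?_⟩, fun ⟨b, a, l⟩ =>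
    ⟨(Measure.mem_support_iff_forall _).2 fun O hO => ?_, b⟩⟩
  · have o := hW.sdiff h1.isClosedEmbedding.isClosed_range
    have := (Measure.mem_support_iff_forall _).1 a _ (o.mem_nhds ⟨b, l⟩)
    simp [k _ o sdiff_subset] at this
  · obtain ⟨O', s, o, i⟩ := _root_.mem_nhds_iff.1 (inter_mem hO (hW.mem_nhds b))
    refine lt_of_lt_of_le ?_ (measure_mono (s.trans inter_subset_left))
    rw [k _ o (s.trans inter_subset_right)]
    exact ENNReal.mul_pos (by simpa using Nat.one_le_iff_ne_zero.1 hn)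
      ((o.preimage h1.continuous).measure_pos _ ⟨a, by rwa [mem_preimage, l]⟩).ne'

theorem flat_of (hA : NullMeasurableSet A μHE[m]) (hθ : AEMeasurable θ (μHE[m].restrict A))
    (h1 : ∀ x ∈ A, 1 ≤ θ x) (hμ : μ = (μHE[m].restrict A).withDensity fun x => θ x) (hr : 0 < r)
    (hU : ball p r ⊆ U) (hL : Module.finrank ℝ L = m) {n : ℕ} (hn : 1 ≤ n)
    (h2 : ∀ᵐ z ∂μ, z ∈ ball p r → z - p ∈ L ∧ θ z = n)
    (h3 : ∫ x in ball p r, u p r x ^ 2 ∂μ = n * (r ^ (m + 4) * cc m)) : Flat m U μ p := by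
  have mb : MeasurableSet (ball p r) := measurableSet_ball
  have a : ∀ᵐ z ∂μHE[m].restrict A, z ∈ ball p r → z - p ∈ L ∧ θ z = n := by
    rw [hμ, ae_withDensity_iff' (f := fun x => θ x) (measurable_from_top.comp_aemeasurable hθ)] at h2
    filter_upwards [h2, ae_restrict_mem₀ hA] with z k l
    exact k (by simpa using Nat.one_le_iff_ne_zero.1 (h1 z l))
  have b : μ.restrict (ball p r) = (n : ENNReal) • μHE[m].restrict (ball p r ∩ A) := by
    rw [hμ, restrict_withDensity mb, ← Measure.restrict_restrict mb, ← withDensity_const]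
    exact withDensity_congr_ae ((ae_restrict_iff' mb).2 (a.mono fun z k l => by simp [(k l).2]))
  have mA := mb.nullMeasurableSet.inter hA
  obtain ⟨i, c⟩ := plane_int hL p hr
  have d : ({x | x - p ∈ L} ∩ (ball p r ∩ A) : Set (V N)) =ᵐ[μHE[m]] (ball p r ∩ A : Set (V N)) :=
    ((ae_restrict_iff'₀ hA).1 a).mono fun z k => propext ⟨fun l => l.2, fun l => ⟨(k l.2 l.1).1, l⟩⟩
  have f := integral_inter_add_sdiff₀ mA i
  rw [b, integral_smul_measure, ENNReal.toReal_natCast, smul_eq_mul,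
    mul_right_inj' (by simpa using Nat.one_le_iff_ne_zero.1 hn)] at h3
  rw [setIntegral_congr_set d, h3, c, add_eq_left, setIntegral_eq_zero_iff_of_nonneg_ae
    (.of_forall fun _ => sq_nonneg _) (i.mono_set sdiff_subset)] at f
  have mP : MeasurableSet {x : V N | x - p ∈ L} :=
    (L.closed_of_finiteDimensional.preimage (by fun_prop)).measurableSet
  have g : (ball p r ∩ A : Set (V N)) =ᵐ[μHE[m]] (ball p r ∩ {x | x - p ∈ L} : Set (V N)) := by
    filter_upwards [(ae_restrict_iff'₀ (mP.nullMeasurableSet.diff mA)).1 f,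
      (ae_restrict_iff'₀ hA).1 a] with z k k'
    refine propext ⟨fun l => ⟨l.1, (k' l.2 l.1).1⟩, fun l => by_contra fun l' => ?_⟩
    have s := pow_lt_pow_left₀ (mem_ball_iff_norm.1 l.1) (norm_nonneg _) two_ne_zero
    exact (lt_max_of_lt_left (sub_pos.2 s)).ne' (pow_eq_zero_iff two_ne_zero |>.1 (k ⟨l.2, l'⟩))
  rw [Measure.restrict_congr_set g] at b
  exact ⟨_, isOpen_ball, mem_ball_self hr, hU, L, hL, n, hn, supp_eq isOpen_ball hL hn b, b⟩

theorem null_of [IsFiniteMeasure μ] {Z : Set (V N)} {c : ℝ} (hc : 0 < c) (hr : 0 < r) (h0 : μ Z = 0)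
    (h : ∀ y ∈ Z, ∀ σ ∈ Ioo 0 r, c * σ ^ m ≤ μ.real (closedBall y σ)) : μHE[m] Z = 0 := by
  choose t s h1 h2 h3 h4 h5 using fun n : ℕ =>
    Besicovitch.exists_closedBall_covering_tsum_measure_le μ (ε := (n : ENNReal)⁻¹) (by simp)
      (fun _ => Ioo 0 (min r (1 / (n + 1)))) Z fun x _ δ hδ =>
      have a : 0 < min (min r (1 / ((n : ℝ) + 1))) δ := by positivity
      ⟨_, ⟨half_pos a, (half_lt_self a).trans_le (min_le_left _ _)⟩,
        half_pos a, (half_lt_self a).trans_le (min_le_right _ _)⟩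
  have := fun n => (h1 n).to_subtype
  have d : ∀ (x : V N) (σ : ℝ), ediam (closedBall x σ) ≤ ENNReal.ofReal (2 * σ) := fun x σ =>
    ediam_le_of_forall_dist_le fun a ha b hb => by
      linarith [dist_triangle_right a b x, mem_closedBall.1 ha, mem_closedBall.1 hb]
  have a := Measure.hausdorffMeasure_le_liminf_tsum m Z (l := atTop)
    (fun n : ℕ => ENNReal.ofReal (2 * (1 / (n + 1)))) (by
      simpa using ENNReal.tendsto_ofReal (tendsto_one_div_add_atTop_nhds_zero_nat.const_mul 2))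
    (fun n (x : t n) => closedBall x.1 (s n x)) (.of_forall fun n x => (d _ _).trans
      (ENNReal.ofReal_le_ofReal (by linarith [(h3 n x x.2).2.trans_le (min_le_right _ _)])))
    (.of_forall fun n => by simpa using h4 n)
  have b : Tendsto (fun n : ℕ => ENNReal.ofReal (2 ^ m / c) * (n : ENNReal)⁻¹) atTop (𝓝 0) := by
    simpa using ENNReal.Tendsto.const_mul ENNReal.tendsto_inv_nat_nhds_zero
      (Or.inr ENNReal.ofReal_ne_top)
  rw [Measure.euclideanHausdorffMeasure_def, Measure.smul_apply, le_zero_iff.1 (a.trans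
    ((liminf_le_liminf (.of_forall fun n => ?_)).trans b.liminf_eq.le)), smul_zero]
  refine le_trans ?_ (mul_le_mul_right ((h5 n).trans_eq (by rw [h0, zero_add])) _)
  rw [← ENNReal.tsum_mul_left]
  refine ENNReal.tsum_le_tsum fun x => ?_
  have k := h3 n x x.2
  rw [ENNReal.rpow_natCast, ← ofReal_measureReal (measure_ne_top _ _),
    ← ENNReal.ofReal_mul (by positivity)]
  refine (pow_le_pow_left' (d _ _) m).trans ?_
  rw [← ENNReal.ofReal_pow (by linarith [k.1])]
  refine ENNReal.ofReal_le_ofReal (le_trans (le_of_eq ?_) (mul_le_mul_of_nonneg_left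
    (h x (h2 n x.2) _ ⟨k.1, k.2.trans_le (min_le_left _ _)⟩) (by positivity)))
  rw [mul_pow]
  field_simp

theorem main (hU : IsOpen U) (hA : NullMeasurableSet A μHE[m])
    (hθ : AEMeasurable θ (μHE[m].restrict A)) (h1 : ∀ x ∈ A, 1 ≤ θ x)
    (hμ : μ = (μHE[m].restrict A).withDensity fun x => θ x) (hf : ∀ x ∈ U, ∃ W ∈ 𝓝 x, μ W < ⊤)
    (hT : AEStronglyMeasurable (fun x => (T x).starProjection) μ)
    (tan : ∀ᵐ x ∂μ, Tan m μ x (T x) (θ x)) (st : Stat U μ T)
    (gap : ∀ᵐ x ∂μ, ∃ c > 0, ∀ᵐ y ∂μ, dist y x < c →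
      T y = T x ∨ ∃ e ∈ (T x)ᗮ, ‖e‖ = 1 ∧ c ≤ ‖(T y).starProjection e‖) :
    μHE[m] {p ∈ U ∩ μ.support | ¬ Flat m U μ p} = 0 := by
  have tan' : ∀ᵐ x ∂μ, 1 ≤ θ x ∧ Tan m μ x (T x) (θ x) := by
    refine Eventually.and ?_ tan
    rw [hμ]
    exact (withDensity_absolutelyContinuous _ _).ae_le ((ae_restrict_mem₀ hA).mono h1)
  have lo : ∀ x ∈ U, ∀ c > 0, ∃ R > 0, R ≤ c ∧ ball x R ⊆ U ∧
      Loc m (ball x R) (μ.restrict (ball x R)) T θ := fun x hx c hc => by
    obtain ⟨W, w1, w2⟩ := hf x hx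
    obtain ⟨R, r0, k⟩ := Metric.mem_nhds_iff.1 (inter_mem w1 (hU.mem_nhds hx))
    have s := (ball_subset_ball (x := x) (min_le_left R c)).trans k
    exact ⟨_, lt_min r0 hc, min_le_right _ _, s.trans inter_subset_right, loc_of isOpen_ball
      (s.trans inter_subset_right) ((measure_mono (s.trans inter_subset_left)).trans_lt w2) hT st
      tan'⟩
  have fl : ∀ᵐ x ∂μ, x ∈ U → Flat m U μ x := by
    filter_upwards [tan', gap] with x a ⟨c, c0, b⟩ hx
    obtain ⟨R, r0, r1, r2, h⟩ := lo x hx c c0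
    obtain ⟨δ, d0, d1, d2, d3⟩ := h.flat (ball_mem_nhds x r0) (a.2.restrict (ball_mem_nhds x r0)) c0
      ((ae_restrict_iff' measurableSet_ball).2 (b.mono fun y k l =>
        k ((mem_ball.1 l).trans_le r1)))
    refine flat_of hA hθ h1 hμ d0 (d1.trans r2) a.2.1 a.1
      (((ae_restrict_iff' measurableSet_ball).1 d2).mono fun y k l => k (d1 l) l) (Eq.trans ?_ d3)
    exact (setIntegral_eq_of_subset_of_forall_sdiff_eq_zero measurableSet_ball d1
      fun y hy => by simp [u_zero d0.le hy.2]).symm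
  refine measure_null_of_locally_null _ fun p hp => ?_
  obtain ⟨R, r0, -, -, h⟩ := lo p hp.1.1 1 one_pos
  have := h.fin
  have fl' := ae_iff.1 (ae_restrict_of_ae (s := ball p R) fl)
  refine ⟨_, inter_mem_nhdsWithin _ (ball_mem_nhds p (half_pos r0)), null_of
    (μ := μ.restrict (ball p R)) (cc_pos (m := m)) (show 0 < R / 4 by positivity)
    (measure_mono_null (fun x hx (l : _ → Flat m U μ x) => hx.1.2 (l hx.1.1.1)) fl')
    fun y hy σ hσ => le_trans ?_ (J_le (m := m) hσ.1)⟩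
  refine mul_le_mul_of_nonneg_right (not_lt.1 fun n => ?_) (pow_pos hσ.1 m).le
  have s : ∀ z ∈ ball y (R / 4), closedBall z σ ⊆ ball p R := fun z hz => closedBall_subset_ball'
    (by linarith [dist_triangle z y p, mem_ball.1 hz, mem_ball.1 hy.2, hσ.2])
  refine ((Measure.mem_support_iff_forall _).1 hy.1.1.2 _ (inter_mem ((cont_J σ).continuousAt.eventually
    (gt_mem_nhds n)) (ball_mem_nhds y (show 0 < R / 4 by positivity)))).ne' ?_
  refine measure_mono_null (fun z hz => ?_)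
    (ae_iff.1 ((ae_restrict_iff' measurableSet_ball).1 h.low))
  exact fun l => (l (s z hz.2 (mem_closedBall_self hσ.1.le)) σ hσ.1 (s z hz.2)).not_gt hz.1

theorem gap_of {S : Set (Submodule ℝ (V N))} (hS : S.Finite)
    (h : ∀ᵐ x ∂μ, T x ∈ S ∧ Module.finrank ℝ (T x) = m) :
    ∀ᵐ x ∂μ, ∃ c > 0, ∀ᵐ y ∂μ, dist y x < c →
      T y = T x ∨ ∃ e ∈ (T x)ᗮ, ‖e‖ = 1 ∧ c ≤ ‖(T y).starProjection e‖ := h.mono fun x hx => by
  have a : ∀ K ∈ S, ∀ᶠ c in 𝓝[>] (0 : ℝ), Module.finrank ℝ K = m →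
      K = T x ∨ ∃ e ∈ (T x)ᗮ, ‖e‖ = 1 ∧ c ≤ ‖K.starProjection e‖ := fun K _ => by
    by_cases l : (T x)ᗮ ≤ Kᗮ
    · exact .of_forall fun c k => Or.inl (Submodule.eq_of_le_of_finrank_eq
        (Submodule.orthogonal_le_orthogonal_iff.1 l) (k.trans hx.2.symm))
    · obtain ⟨v, v1, v2⟩ := SetLike.not_le_iff_exists.1 l
      have v0 : v ≠ 0 := fun k => v2 (k ▸ zero_mem _)
      have b : 0 < ‖K.starProjection (‖v‖⁻¹ • v)‖ := norm_pos_iff.2 fun k => v2
        ((Submodule.smul_mem_iff _ (inv_ne_zero (norm_ne_zero_iff.2 v0))).1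
          (K.starProjection_apply_eq_zero_iff.1 k))
      exact mem_of_superset (Ioc_mem_nhdsGT b) fun c hc _ =>
        Or.inr ⟨_, Submodule.smul_mem _ _ v1, norm_smul_inv_norm (𝕜 := ℝ) v0, hc.2⟩
  obtain ⟨c, h1, c0⟩ := (((eventually_all_finite hS).2 a).and self_mem_nhdsWithin).exists
  exact ⟨c, c0, h.mono fun y hy _ => h1 _ hy.1 hy.2⟩

end Vale.Agent.P214
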