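import Vale.Agent.P214.Defs

/-! P214: the weighted monotonicity formula. -/

open MeasureTheory Set Filter Metric
open scoped Topology RealInnerProductSpace

namespace Vale.Agent.P214

variable {N m : ℕ} {U : Set (V N)} {μ : Measure (V N)} {T : V N → Submodule ℝ (V N)}
  {θ : V N → ℕ} {y : V N} {σ : ℝ}

/-- the truncated paraboloid -/
noncomputable def u (y : V N) (σ : ℝ) (x : V N) : ℝ := max (σ ^ 2 - ‖x - y‖ ^ 2) 0

/-- local data, with finite mass -/
structure Loc (m : ℕ) (U : Set (V N)) (μ : Measure (V N)) (T : V N → Submodule ℝ (V N))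
    (θ : V N → ℕ) : Prop where
  fin : IsFiniteMeasure μ
  meas : AEStronglyMeasurable (fun x => (T x).starProjection) μ
  st : Stat U μ T
  tan : ∀ᵐ x ∂μ, 1 ≤ θ x ∧ Tan m μ x (T x) (θ x)

theorem der_p2 (t : ℝ) : HasDerivAt (fun t : ℝ => max t 0 ^ 2) (2 * max t 0) t := by
  rcases lt_trichotomy t 0 with h | rfl | h
  · rw [max_eq_right h.le, mul_zero]
    exact (hasDerivAt_const t 0).congr_of_eventuallyEq
      ((gt_mem_nhds h : ∀ᶠ s in 𝓝 t, s < 0).mono fun s hs => by simp [hs.le])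
  · have a : HasDerivAt (fun t : ℝ => t ^ 2) 0 0 := by simpa using hasDerivAt_pow 2 (0 : ℝ)
    rw [hasDerivAt_iff_isLittleO] at a ⊢
    refine (Asymptotics.isBigO_of_le _ fun s => ?_).trans_isLittleO a
    rcases le_total s 0 with h | h <;> simp [h]
    positivity
  · rw [max_eq_left h.le]
    exact (by simpa using hasDerivAt_pow 2 t : HasDerivAt (fun t : ℝ => t ^ 2) (2 * t) t
      ).congr_of_eventuallyEq ((lt_mem_nhds h : ∀ᶠ s in 𝓝 t, 0 < s).mono fun s hs => by
        simp [hs.le])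

theorem u_nonneg (x : V N) : 0 ≤ u y σ x := le_max_right _ _

theorem u_le (x : V N) : u y σ x ≤ σ ^ 2 := max_le (by linarith [sq_nonneg ‖x - y‖]) (sq_nonneg _)

theorem u_zero (hσ : 0 ≤ σ) {x : V N} (h : x ∉ ball y σ) : u y σ x = 0 :=
  max_eq_right (sub_nonpos.2 (pow_le_pow_left₀ hσ (not_lt.1 (mt mem_ball_iff_norm.2 h)) 2))

theorem u_ge {x : V N} {s : ℝ} (h : x ∈ closedBall y s) : σ ^ 2 - s ^ 2 ≤ u y σ x :=
  le_max_of_le_left (sub_le_sub_left
    (pow_le_pow_left₀ (norm_nonneg _) (mem_closedBall_iff_norm.1 h) 2) _)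

theorem u_mul (x : V N) : u y σ x * σ ^ 2 = u y σ x ^ 2 + u y σ x * ‖x - y‖ ^ 2 := by
  unfold u
  rcases le_total (σ ^ 2 - ‖x - y‖ ^ 2) 0 with h | h
  · simp [h]
  · rw [max_eq_left h]; ring

theorem u_scale (hσ : 0 < σ) (x : V N) : u y σ x = σ ^ 2 * u 0 1 (σ⁻¹ • (x - y)) := by
  rw [u, u, mul_max_of_nonneg _ _ (sq_nonneg σ), sub_zero, norm_smul, norm_inv,
    Real.norm_of_nonneg hσ.le]
  congr 1
  · field_simp
  · simp

@[fun_prop] theorem cont_u : Continuous (u y σ) := by unfold u; fun_prop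

theorem ts_u (hσ : 0 ≤ σ) : tsupport (u y σ) ⊆ closedBall y σ :=
  closure_minimal (fun _ hx => ball_subset_closedBall (by_contra fun n => hx (u_zero hσ n)))
    isClosed_closedBall

theorem cs_u (hσ : 0 ≤ σ) : HasCompactSupport (u y σ) :=
  (isCompact_closedBall y σ).of_isClosed_subset (isClosed_tsupport _) (ts_u hσ)

theorem cd_u : ContDiff ℝ 1 fun x => u y σ x ^ 2 :=
  (contDiff_one_iff_deriv.2 ⟨fun t => (der_p2 t).differentiableAt, by
    rw [show deriv (fun t : ℝ => max t 0 ^ 2) = _ from funext fun t => (der_p2 t).deriv]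
    fun_prop⟩).comp (contDiff_const.sub ((contDiff_id.sub contDiff_const).norm_sq ℝ))

theorem fd_u (x w : V N) : fderiv ℝ (fun x => u y σ x ^ 2) x w = -4 * u y σ x * ⟪x - y, w⟫ := by
  have a := (der_p2 _).comp_hasFDerivAt x
    (((hasFDerivAt_id x).sub_const y).norm_sq.const_sub (σ ^ 2))
  rw [show fderiv ℝ (fun x => u y σ x ^ 2) x = _ from a.fderiv]
  simp [u, inner_sub_left]
  ring

theorem fd_mul {ψ : V N → ℝ} (h : ContDiff ℝ 1 ψ) (x w : V N) :
    fderiv ℝ (fun x => u y σ x ^ 2 * ψ x) x w =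
      u y σ x ^ 2 * fderiv ℝ ψ x w - 4 * u y σ x * ψ x * ⟪x - y, w⟫ := by
  rw [fderiv_fun_mul (cd_u.differentiable one_ne_zero x) (h.differentiable one_ne_zero x)]
  simp only [_root_.add_apply, _root_.smul_apply, fd_u, smul_eq_mul]
  ring

theorem ts_mul (hσ : 0 ≤ σ) (ψ : V N → ℝ) :
    tsupport (fun x => u y σ x ^ 2 * ψ x) ⊆ closedBall y σ :=
  closure_minimal (fun x hx => ball_subset_closedBall (by_contra fun n => hx (by
    simp [u_zero hσ n]))) isClosed_closedBall

theorem cs_mul (hσ : 0 ≤ σ) (ψ : V N → ℝ) : HasCompactSupport fun x => u y σ x ^ 2 * ψ x :=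
  (isCompact_closedBall y σ).of_isClosed_subset (isClosed_tsupport _) (ts_mul hσ ψ)

theorem inner_proj (K : Submodule ℝ (V N)) (v : V N) :
    ⟪v, K.starProjection v⟫ = ‖K.starProjection v‖ ^ 2 := by
  have a := K.starProjection_inner_eq_zero v _ (K.starProjection_apply_mem v)
  rw [inner_sub_left, real_inner_self_eq_norm_sq] at a
  linarith

theorem Loc.app (h : Loc m U μ T θ) {Y : V N → V N} (hY : Continuous Y) :
    AEStronglyMeasurable (fun x => (T x).starProjection (Y x)) μ :=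
  (continuous_fst.clm_apply continuous_snd).comp_aestronglyMeasurable
    (h.meas.prodMk hY.aestronglyMeasurable)

theorem Loc.intg (h : Loc m U μ T θ) {a : V N → ℝ} (h1 : ContDiff ℝ 1 a) (h2 : HasCompactSupport a)
    {Y : V N → V N} (hY : Continuous Y) :
    Integrable (fun x => fderiv ℝ a x ((T x).starProjection (Y x))) μ := by
  have := h.fin
  have c := h1.continuous_fderiv one_ne_zero
  refine ((c.norm.mul hY.norm).integrable_of_hasCompactSupport
    (h2.fderiv ℝ).norm.mul_right).mono' ?_ (.of_forall fun x => ?_)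
  · exact (continuous_fst.clm_apply continuous_snd).comp_aestronglyMeasurable
      (c.aestronglyMeasurable.prodMk (h.app hY))
  · exact (fderiv ℝ a x).le_opNorm_of_le ((T x).norm_starProjection_apply_le _)

theorem Loc.stat (h : Loc m U μ T θ) {a : V N → ℝ} (h1 : ContDiff ℝ 1 a) (h2 : HasCompactSupport a)
    (h3 : tsupport a ⊆ U) (k : ℝ) (v : V N) :
    ∫ x, (k * m * a x + fderiv ℝ a x ((T x).starProjection (k • x + v))) ∂μ = 0 := by
  have c : ContDiff ℝ 1 fun x : V N => k • x + v := by fun_prop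
  refine Eq.trans (integral_congr_ae (h.tan.mono fun x hx => ?_)) (h.st
    (fun x => a x • (k • x + v)) (h1.smul c) h2.smul_right ((tsupport_smul_subset_left _ _).trans h3))
  have d := (h1.differentiable one_ne_zero x).hasFDerivAt.smul
    (((hasFDerivAt_id x).const_smul k).add_const v)
  have p : LinearMap.IsProj (T x) (T x).starProjection.toLinearMap :=
    ⟨(T x).starProjection_apply_mem, fun v hv => Submodule.starProjection_eq_self_iff.2 hv⟩
  have e : ((T x).starProjection.comp (fderiv ℝ (fun x => a x • (k • x + v)) x)).toLinearMap =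
      (a x * k) • (T x).starProjection.toLinearMap +
        (fderiv ℝ a x).toLinearMap.smulRight ((T x).starProjection (k • x + v)) := by
    rw [show fderiv ℝ (fun x => a x • (k • x + v)) x = _ from d.fderiv]
    ext1 w
    simp [smul_smul]
  dsimp only
  rw [e, LinearMap.map_add, LinearMap.map_smul, p.trace, LinearMap.trace_smulRight, hx.2.1,
    smul_eq_mul]
  simp only [ContinuousLinearMap.coe_coe]
  ring

/-- the weighted mass ratio -/
noncomputable def J (m : ℕ) (μ : Measure (V N)) (ψ : V N → ℝ) (y : V N) (σ : ℝ) : ℝ :=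
  (∫ x, u y σ x ^ 2 * ψ x ∂μ) / σ ^ (m + 4)

/-- the density of its derivative -/
noncomputable def R (T : V N → Submodule ℝ (V N)) (ψ : V N → ℝ) (y : V N) (σ : ℝ) (x : V N) : ℝ :=
  4 * u y σ x * ψ x * (‖x - y‖ ^ 2 - ‖(T x).starProjection (x - y)‖ ^ 2) +
    u y σ x ^ 2 * fderiv ℝ ψ x ((T x).starProjection (x - y))

theorem Loc.der (h : Loc m U μ T θ) {ψ : V N → ℝ} (h1 : ContDiff ℝ 1 ψ) (hσ : 0 < σ)
    (hU : closedBall y σ ⊆ U) : Integrable (R T ψ y σ) μ ∧
      HasDerivAt (J m μ ψ y) ((∫ x, R T ψ y σ x ∂μ) / σ ^ (m + 5)) σ := by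
  have := h.fin
  have c := h1.continuous
  have i0 : Integrable (fun x => u y σ x ^ 2 * ψ x) μ :=
    Continuous.integrable_of_hasCompactSupport (by fun_prop) (cs_mul hσ.le ψ)
  obtain ⟨i1, d⟩ := hasDerivAt_integral_of_dominated_loc_of_deriv_le (μ := μ)
    (F := fun s x => u y s x ^ 2 * ψ x) (F' := fun s x => 2 * u y s x * (2 * s) * ψ x)
    (bound := fun x => u y (σ + 1) x * (4 * (σ + 1) * |ψ x|)) (Ioo_mem_nhds hσ (lt_add_one σ))
    (.of_forall fun s => Continuous.aestronglyMeasurable (by fun_prop)) i0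
    (Continuous.aestronglyMeasurable (by fun_prop)) (.of_forall fun x s hs => by
      have a : u y s x ≤ u y (σ + 1) x :=
        max_le_max_right _ (by nlinarith [hs.1, hs.2])
      have b := u_nonneg (y := y) (σ := s) x
      rw [norm_mul, Real.norm_of_nonneg (by have := hs.1; positivity), Real.norm_eq_abs,
        show 2 * u y s x * (2 * s) * |ψ x| = u y s x * (4 * s * |ψ x|) by ring]
      have := hs.1
      have := hs.2.le
      have := b.trans a
      gcongr)
    (Continuous.integrable_of_hasCompactSupport (by fun_prop) (cs_u (by linarith)).mul_right)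
    (.of_forall fun x s _ => by
      have a : HasDerivAt (fun s : ℝ => s ^ 2 - ‖x - y‖ ^ 2) (2 * s) s := by
        simpa using (hasDerivAt_pow 2 s).sub_const (‖x - y‖ ^ 2)
      exact ((der_p2 _).comp s a).mul_const (ψ x))
  have i2 := h.intg (cd_u.mul h1) (cs_mul (y := y) hσ.le ψ)
    (Y := fun x => (1 : ℝ) • x + -y) (by fun_prop)
  have s := h.stat (cd_u.mul h1) (cs_mul hσ.le ψ) ((ts_mul hσ.le ψ).trans hU) 1 (-y)
  have e : R T ψ y σ = fun x => σ * (2 * u y σ x * (2 * σ) * ψ x) - (m + 4) * (u y σ x ^ 2 * ψ x) +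
      (1 * m * (u y σ x ^ 2 * ψ x) + fderiv ℝ (fun x => u y σ x ^ 2 * ψ x) x
        ((T x).starProjection ((1 : ℝ) • x + -y))) := funext fun x => by
    rw [fd_mul h1, one_smul, ← sub_eq_add_neg, inner_proj, R]
    linear_combination (-4 * ψ x) * u_mul (y := y) (σ := σ) x
  have i3 := (i1.const_mul σ).sub (i0.const_mul (m + 4))
  have i4 := (i0.const_mul (1 * m)).add i2
  refine ⟨e ▸ i3.add i4, ?_⟩
  refine (d.div (hasDerivAt_pow (m + 4) σ) (by positivity)).congr_deriv ?_
  rw [show ∫ x, R T ψ y σ x ∂μ = _ from e ▸ (integral_add i3 i4).trans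
    (congrArg₂ _ (integral_sub (i1.const_mul σ) (i0.const_mul _)) s),
    integral_const_mul, integral_const_mul]
  simp only [Nat.add_succ_sub_one]
  generalize ∫ a, 2 * u y σ a * (2 * σ) * ψ a ∂μ = A
  push_cast
  field_simp
  ring

theorem mvt {f f' : ℝ → ℝ} {s ρ C : ℝ} (h : s ≤ ρ) (d : ∀ t ∈ Icc s ρ, HasDerivAt f (f' t) t)
    (k : ∀ t ∈ Icc s ρ, C ≤ f' t) : f s + C * (ρ - s) ≤ f ρ := by
  linarith [(convex_Icc s ρ).mul_sub_le_image_sub_of_le_deriv
    (fun t ht => (d t ht).continuousAt.continuousWithinAt)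
    (fun t ht => (d t (interior_subset ht)).differentiableAt.differentiableWithinAt)
    (fun t ht => (d t (interior_subset ht)).deriv ▸ k t (interior_subset ht)) s
    (left_mem_Icc.2 h) ρ (right_mem_Icc.2 h) h]

theorem Loc.mono (h : Loc m U μ T θ) {s ρ : ℝ} (hs : 0 < s) (l : s ≤ ρ)
    (hU : closedBall y ρ ⊆ U) : J m μ (fun _ => 1) y s ≤ J m μ (fun _ => 1) y ρ := by
  simpa using mvt (C := 0) l (fun t ht => (h.der (ψ := fun _ => 1) contDiff_const (hs.trans_le ht.1)
    ((closedBall_subset_closedBall ht.2).trans hU)).2) fun t ht =>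
    div_nonneg (integral_nonneg fun x => by
      have a := pow_le_pow_left₀ (norm_nonneg _) ((T x).norm_starProjection_apply_le (x - y)) 2
      simpa [R] using mul_nonneg (mul_nonneg zero_le_four (u_nonneg (y := y) (σ := t) x))
        (sub_nonneg.2 a))
      (pow_pos (hs.trans_le ht.1) _).le

theorem Loc.const (h : Loc m U μ T θ) {s ρ : ℝ} (hs : 0 < s) (l : s ≤ ρ)
    (hU : closedBall y ρ ⊆ U) (k : ∀ᵐ x ∂μ, x ∈ ball y ρ → x - y ∈ T x) :
    J m μ (fun _ => 1) y s = J m μ (fun _ => 1) y ρ := by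
  refine (h.mono hs l hU).antisymm ?_
  simpa using mvt (C := 0) l (fun t ht => (h.der (ψ := fun _ => 1) contDiff_const (hs.trans_le ht.1)
    ((closedBall_subset_closedBall ht.2).trans hU)).2.neg) fun t ht => by
    rw [integral_congr_ae (g := fun _ => 0) (k.mono fun x hx => ?_)]
    · simp
    by_cases n : x ∈ ball y ρ
    · simp [R, Submodule.starProjection_eq_self_iff.2 (hx n)]
    · simp [R, u_zero (hs.le.trans ht.1) fun l => n (ball_subset_ball ht.2 l)]

end Vale.Agent.P214
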