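import Vale.Agent.P214.Mono

/-! P214: density bounds, the slab estimate and the Caccioppoli inequality. -/

open MeasureTheory Set Filter Metric
open scoped Topology RealInnerProductSpace

namespace Vale.Agent.P214

variable {N m : ℕ} {U : Set (V N)} {μ : Measure (V N)} {T : V N → Submodule ℝ (V N)}
  {θ : V N → ℕ} {y z e : V N} {σ s ρ : ℝ} {L : Submodule ℝ (V N)}

/-- the mass ratio of a plane -/
noncomputable def cc (m : ℕ) : ℝ := ∫ a : V m, u 0 1 a ^ 2

theorem cs_sq (hσ : 0 ≤ σ) : HasCompactSupport fun x => u y σ x ^ 2 := by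
  simpa using cs_mul (y := y) hσ fun _ => 1

theorem cc_pos : 0 < cc m :=
  Continuous.integral_pos_of_hasCompactSupport_nonneg_nonzero (x := 0) (by fun_prop)
    (cs_sq zero_le_one) (fun _ => sq_nonneg _) (by simp [u])

theorem plane (hL : Module.finrank ℝ L = m) (p : V N) : ∃ j : V m → V N, Isometry j ∧ j 0 = p ∧
    range j = {x | x - p ∈ L} ∧
    (μHE[m] : Measure (V N)).restrict {x | x - p ∈ L} = volume.map j := by
  let r := ((stdOrthonormalBasis ℝ L).reindex (finCongr hL)).repr.symm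
  have a : Isometry fun a => p + (r a : V N) :=
    (isometry_add_left p).comp (isometry_subtype_coe.comp r.isometry)
  have b : range (fun a => p + (r a : V N)) = {x | x - p ∈ L} := by
    ext x
    refine ⟨?_, fun h => ⟨r.symm ⟨_, h⟩, by simp⟩⟩
    rintro ⟨a, rfl⟩
    simp
  exact ⟨_, a, by simp, b, by rw [← b, ← a.map_euclideanHausdorffMeasure,
    EuclideanSpace.euclideanHausdorffMeasure_eq_volume]⟩

theorem plane_int (hL : Module.finrank ℝ L = m) (p : V N) (hσ : 0 < σ) :
    IntegrableOn (fun x => u p σ x ^ 2) {x | x - p ∈ L} μHE[m] ∧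
      ∫ x in {x | x - p ∈ L}, u p σ x ^ 2 ∂μHE[m] = σ ^ (m + 4) * cc m := by
  obtain ⟨j, h1, rfl, -, h3⟩ := plane hL p
  have a : ∀ a, u (j 0) σ (j a) = u 0 σ a := fun a => by
    simp only [u, ← dist_eq_norm, h1.dist_eq]
  have M := h1.isClosedEmbedding.measurableEmbedding
  rw [IntegrableOn, h3, M.integrable_map_iff, M.integral_map]
  simp only [Function.comp_def, a]
  refine ⟨Continuous.integrable_of_hasCompactSupport (by fun_prop) (cs_sq hσ.le), ?_⟩
  simp only [u_scale hσ, sub_zero, mul_pow, integral_const_mul]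
  rw [Measure.integral_comp_smul volume (fun a : V m => u 0 1 a ^ 2), finrank_euclideanSpace_fin,
    inv_pow, inv_inv, abs_of_pos (pow_pos hσ m), smul_eq_mul, cc]
  ring

theorem Tan.lim {q : ℝ} (h : Tan m μ z L q) :
    Tendsto (J m μ (fun _ => 1) z) (𝓝[>] 0) (𝓝 (q * cc m)) := by
  have a := h.2 (fun x => u 0 1 x ^ 2) (by fun_prop) (cs_sq zero_le_one)
  have b := (plane_int h.1 0 one_pos).2
  simp only [sub_zero, one_pow, one_mul] at b
  rw [show ∫ y in (L : Set (V N)), u 0 1 y ^ 2 ∂μHE[m] = cc m from b] at a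
  refine a.congr' (mem_of_superset self_mem_nhdsWithin fun r (hr : 0 < r) => ?_)
  simp only [mem_ofPred_eq, J, u_scale (y := z) hr, mul_pow, mul_one, integral_const_mul]
  field_simp
  ring

/-- points where the mass ratios are at least those of a plane -/
def Low (m : ℕ) (U : Set (V N)) (μ : Measure (V N)) (z : V N) : Prop :=
  ∀ σ > 0, closedBall z σ ⊆ U → cc m ≤ J m μ (fun _ => 1) z σ

theorem Loc.low (h : Loc m U μ T θ) : ∀ᵐ z ∂μ, Low m U μ z := h.tan.mono fun z hz σ hσ hU =>
  (le_mul_of_one_le_left cc_pos.le (by exact_mod_cast hz.1)).trans (le_of_tendsto hz.2.lim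
    (mem_of_superset (Ioc_mem_nhdsGT hσ) fun _ hs => h.mono hs.1 hs.2 hU))

theorem int_le {ψ : V N → ℝ} (hσ : 0 ≤ σ) (h : Integrable ψ μ) (h0 : ∀ x, 0 ≤ ψ x) :
    ∫ x, u y σ x ^ 2 * ψ x ∂μ ≤ σ ^ 4 * ∫ x in closedBall y σ, ψ x ∂μ := by
  rw [← integral_const_mul, ← integral_indicator measurableSet_closedBall]
  refine integral_mono_of_nonneg (.of_forall fun x => mul_nonneg (sq_nonneg _) (h0 x))
    ((h.const_mul _).indicator measurableSet_closedBall) (.of_forall fun x => ?_)
  by_cases hx : x ∈ closedBall y σ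
  · simp only [indicator_of_mem hx]
    exact mul_le_mul_of_nonneg_right ((pow_le_pow_left₀ (u_nonneg x) (u_le x) 2).trans_eq
      (by ring)) (h0 x)
  · simp [indicator_of_notMem hx, u_zero hσ fun l => hx (ball_subset_closedBall l)]

theorem int_u {ψ : V N → ℝ} (h : Integrable ψ μ) : Integrable (fun x => u y σ x ^ 2 * ψ x) μ :=
  h.bdd_mul (c := (σ ^ 2) ^ 2) (Continuous.aestronglyMeasurable (by fun_prop)) (.of_forall fun x =>
    (Real.norm_of_nonneg (sq_nonneg _)).trans_le (pow_le_pow_left₀ (u_nonneg x) (u_le x) 2))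

theorem int_ge {ψ : V N → ℝ} (hs : s ^ 2 ≤ σ ^ 2) (h : Integrable ψ μ) (h0 : ∀ x, 0 ≤ ψ x) :
    (σ ^ 2 - s ^ 2) ^ 2 * ∫ x in closedBall y s, ψ x ∂μ ≤ ∫ x, u y σ x ^ 2 * ψ x ∂μ := by
  rw [← integral_const_mul, ← integral_indicator measurableSet_closedBall]
  refine integral_mono ((h.const_mul _).indicator measurableSet_closedBall) (int_u h) fun x => ?_
  by_cases hx : x ∈ closedBall y s
  · simp only [indicator_of_mem hx]
    exact mul_le_mul_of_nonneg_right (pow_le_pow_left₀ (sub_nonneg.2 hs) (u_ge hx) 2) (h0 x)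
  · simp only [indicator_of_notMem hx]
    exact mul_nonneg (sq_nonneg _) (h0 x)

theorem J_le [IsFiniteMeasure μ] (hσ : 0 < σ) :
    J m μ (fun _ => 1) y σ * σ ^ m ≤ μ.real (closedBall y σ) := by
  have a := int_le (μ := μ) (y := y) hσ.le (integrable_const 1) fun _ => zero_le_one
  rw [setIntegral_const, smul_eq_mul, mul_one] at a
  rw [J, div_mul_eq_mul_div, div_le_iff₀ (by positivity)]
  calc _ ≤ σ ^ 4 * μ.real (closedBall y σ) * σ ^ m := by gcongr
    _ = _ := by ring

theorem Loc.up (h : Loc m U μ T θ) (hρ : 0 < ρ) : ∃ Λ > 0, ∀ y σ, closedBall y (2 * ρ) ⊆ U → 0 < σ →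
    σ ≤ ρ → μ.real (closedBall y σ) ≤ Λ * σ ^ m := by
  have := h.fin
  refine ⟨2 ^ (m + 4) * (μ.real univ / (2 * ρ) ^ m + 1), by positivity, fun y σ hU hσ l => ?_⟩
  have a := int_ge (μ := μ) (y := y) (s := σ) (σ := 2 * σ) (by nlinarith) (integrable_const 1)
    fun _ => zero_le_one
  rw [setIntegral_const, smul_eq_mul, mul_one] at a
  have b := (h.mono (by positivity) (by linarith : 2 * σ ≤ 2 * ρ) hU).trans
    (((le_div_iff₀ (by positivity)).2 ((J_le (by positivity)).trans
      (measureReal_mono (subset_univ _)))).trans (le_add_of_nonneg_right zero_le_one))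
  rw [J, div_le_iff₀ (by positivity)] at b
  refine le_of_mul_le_mul_left ?_ (pow_pos hσ 4)
  calc _ ≤ ((2 * σ) ^ 2 - σ ^ 2) ^ 2 * μ.real (closedBall y σ) := by
        gcongr; nlinarith [pow_pos hσ 4]
    _ ≤ _ := a.trans b
    _ = _ := by ring

theorem fd_lin {g : ℝ → ℝ} {g' : ℝ} {x : V N} (h : HasDerivAt g g' ⟪e, x - z⟫) (w : V N) :
    fderiv ℝ (fun x => g ⟪e, x - z⟫) x w = g' * ⟪e, w⟫ := by
  have a := h.comp_hasFDerivAt (f := fun x => ⟪e, x - z⟫) x
    ((innerSL ℝ e).hasFDerivAt.comp x ((hasFDerivAt_id x).sub_const z))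
  rw [show fderiv ℝ (fun x => g ⟪e, x - z⟫) x = _ from a.fderiv]
  simp

theorem cd_lin {g : ℝ → ℝ} (h : ContDiff ℝ 1 g) : ContDiff ℝ 1 fun x : V N => g ⟪e, x - z⟫ :=
  h.comp (contDiff_const.inner ℝ (contDiff_id.sub contDiff_const))

/-- the profile of a slab -/
noncomputable def k (s t : ℝ) : ℝ := 1 / (1 + (t / s) ^ 2)

theorem k_pos (t : ℝ) : 0 < k s t := by unfold k; positivity

theorem k_le (t : ℝ) : k s t ≤ 1 := (div_le_one (by positivity)).2 (by linarith [sq_nonneg (t / s)])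

theorem cd_k : ContDiff ℝ 1 (k s) :=
  contDiff_const.div (by fun_prop) fun t => by positivity

theorem der_k (hs : 0 < s) (t : ℝ) : ∃ d, |d| ≤ 1 / s ∧ HasDerivAt (k s) d t := by
  refine ⟨_, ?_, (hasDerivAt_const t 1).div ((((hasDerivAt_id t).div_const s).pow 2).const_add 1)
    (by positivity)⟩
  simp only [id]
  generalize t / s = a
  rw [abs_div, abs_sq, div_le_div_iff₀ (by positivity) hs]
  simp only [zero_mul, zero_sub, abs_neg, one_mul, abs_mul, Nat.add_one_sub_one, pow_one,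
    abs_of_pos (one_div_pos.2 hs), Nat.cast_ofNat, abs_two]
  field_simp
  nlinarith [sq_nonneg (|a| - 1), sq_abs a, sq_nonneg (a ^ 2), sq_nonneg a]

theorem Loc.int_k (h : Loc m U μ T θ) : Integrable (fun x => k s ⟪e, x - z⟫) μ :=
  have := h.fin
  .of_bound (cd_lin cd_k).continuous.aestronglyMeasurable 1 (.of_forall fun _ =>
    (Real.norm_of_nonneg (k_pos _).le).trans_le (k_le _))

theorem Loc.int_p (h : Loc m U μ T θ) (n : ℕ) :
    Integrable (fun x => ‖(T x).starProjection e‖ ^ n) μ :=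
  have := h.fin
  .of_bound ((h.app continuous_const).norm.pow n) (‖e‖ ^ n) (.of_forall fun x =>
    (Real.norm_of_nonneg (by positivity)).trans_le
      (pow_le_pow_left₀ (norm_nonneg _) ((T x).norm_starProjection_apply_le e) n))

theorem Loc.int_p1 (h : Loc m U μ T θ) : Integrable (fun x => ‖(T x).starProjection e‖) μ := by
  simpa using h.int_p (e := e) 1

theorem Loc.slab (h : Loc m U μ T θ) (hz : Low m U μ z) (hs : 0 < s) (l : s ≤ ρ)
    (hU : closedBall z ρ ⊆ U) (he : ‖e‖ ≤ 1) {A : ℝ}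
    (hA : ∫ x in closedBall z ρ, ‖(T x).starProjection e‖ ∂μ ≤ A) :
    ρ ^ m * (cc m / 2 - A * ρ / s ^ (m + 1)) ≤ ∫ x in closedBall z ρ, k s ⟪e, x - z⟫ ∂μ := by
  have := h.fin
  have r0 := hs.trans_le l
  have A0 : 0 ≤ A := (integral_nonneg fun _ => norm_nonneg _).trans hA
  have d := fun t (ht : t ∈ Icc s ρ) => h.der (ψ := fun x => k s ⟪e, x - z⟫) (cd_lin cd_k)
    (hs.trans_le ht.1) ((closedBall_subset_closedBall ht.2).trans hU)
  have a := mvt (C := -(A / s ^ (m + 1))) l (fun t ht => (d t ht).2) fun t ht => by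
    have t0 := hs.trans_le ht.1
    have b : ∫ x, -(t / s) * (u z t x ^ 2 * ‖(T x).starProjection e‖) ∂μ ≤ _ :=
      integral_mono ((int_u h.int_p1).const_mul _) (d t ht).1 fun x => by
      obtain ⟨g, g1, g2⟩ := der_k hs ⟪e, x - z⟫
      have a := pow_le_pow_left₀ (norm_nonneg _) ((T x).norm_starProjection_apply_le (x - z)) 2
      have b := mul_nonneg (mul_nonneg (mul_nonneg zero_le_four (u_nonneg (y := z) (σ := t) x))
        (k_pos (s := s) ⟪e, x - z⟫).le) (sub_nonneg.2 a)
      simp only [R, fd_lin g2, ← Submodule.inner_starProjection_left_eq_right]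
      by_cases n : x ∈ ball z t
      · have c : |g * ⟪(T x).starProjection e, x - z⟫| ≤
            1 / s * (‖(T x).starProjection e‖ * t) := by
          rw [abs_mul]
          gcongr
          exact (abs_real_inner_le_norm _ _).trans
            (by gcongr; exact (mem_ball_iff_norm.1 n).le)
        have := mul_le_mul_of_nonneg_left (abs_le.1 c).1 (sq_nonneg (u z t x))
        refine le_trans (le_of_eq (by ring)) (this.trans (le_add_of_nonneg_left b))
      · simp [u_zero t0.le n]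
    have c := (int_le (y := z) t0.le h.int_p1 fun _ => norm_nonneg _).trans
      (mul_le_mul_of_nonneg_left ((setIntegral_mono_set h.int_p1.integrableOn (.of_forall fun _ =>
        norm_nonneg _) (closedBall_subset_closedBall ht.2).eventuallyLE).trans hA) (by positivity))
    rw [integral_const_mul] at b
    rw [le_div_iff₀ (by positivity)]
    refine le_trans ?_ ((mul_le_mul_of_nonpos_left c (neg_nonpos.2 (by positivity))).trans b)
    have f : s ^ m ≤ t ^ m := pow_le_pow_left₀ hs.le ht.1 m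
    rw [neg_mul, neg_mul, neg_le_neg_iff]
    calc t / s * (t ^ 4 * A) = A / s ^ (m + 1) * (s ^ m * t ^ 5) := by field_simp; ring
      _ ≤ _ := by rw [pow_add t]; gcongr
  have b : J m μ (fun _ => 1) z s / 2 ≤ J m μ (fun x => k s ⟪e, x - z⟫) z s := by
    rw [J, J, div_right_comm, ← integral_div]
    gcongr (?_ : ℝ) / _
    refine integral_mono_of_nonneg (.of_forall fun x => by positivity) (int_u h.int_k)
      (.of_forall fun x => ?_)
    by_cases n : x ∈ ball z s
    · have c : |⟪e, x - z⟫ / s| ≤ 1 := by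
        rw [abs_div, abs_of_pos hs, div_le_one hs]
        exact (abs_real_inner_le_norm _ _).trans
          ((mul_le_of_le_one_left (norm_nonneg _) he).trans (mem_ball_iff_norm.1 n).le)
      simp only [mul_div_assoc, k]
      gcongr
      linarith [(sq_le_one_iff_abs_le_one _).2 c]
    · simp [u_zero hs.le n]
  have c := hz s hs ((closedBall_subset_closedBall l).trans hU)
  have f : cc m / 2 - A * ρ / s ^ (m + 1) ≤ J m μ (fun x => k s ⟪e, x - z⟫) z ρ := by
    have : 0 ≤ A / s ^ (m + 1) * s := by positivity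
    rw [mul_div_right_comm]
    linarith
  rw [J, le_div_iff₀ (by positivity)] at f
  refine le_of_mul_le_mul_left ?_ (pow_pos r0 4)
  exact le_trans (le_of_eq (by ring)) (f.trans (int_le r0.le h.int_k fun _ => (k_pos _).le))

theorem Loc.cacc (h : Loc m U μ T θ) (hσ : 0 ≤ σ) (hU : closedBall y σ ⊆ U) {g g' : ℝ → ℝ}
    (h1 : ContDiff ℝ 1 g) (h2 : ∀ t, HasDerivAt g (g' t) t) (h3 : ∀ t, 0 ≤ g' t) {B : V N → ℝ}
    (h4 : Integrable B μ)
    (h5 : ∀ x, 4 * u y σ x * g ⟪e, x - z⟫ * ⟪x - y, (T x).starProjection e⟫ ≤ B x) :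
    ∫ x, u y σ x ^ 2 * (g' ⟪e, x - z⟫ * ‖(T x).starProjection e‖ ^ 2) ∂μ ≤ ∫ x, B x ∂μ := by
  have c := cd_u (y := y) (σ := σ).mul (cd_lin (e := e) (z := z) h1)
  have i := h.intg c (cs_mul hσ _) (Y := fun _ => e) continuous_const
  have s := h.stat c (cs_mul hσ _) ((ts_mul hσ _).trans hU) 0 e
  simp only [zero_mul, zero_smul, zero_add] at s
  rw [← zero_add (∫ x, B x ∂μ), ← s, ← integral_add i h4]
  refine integral_mono_of_nonneg (.of_forall fun x => by have := h3 ⟪e, x - z⟫; positivity)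
    (i.add h4) (.of_forall fun x => ?_)
  simp only [fd_mul (cd_lin h1), fd_lin (h2 _), inner_proj]
  linarith [h5 x]

end Vale.Agent.P214
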